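import Vale.Agent.P181.R2.H959.FDefs
import Vale.Agent.P181.H536.HW
import Vale.Agent.P181.Bdl.B2

set_option autoImplicit false

open scoped TensorProduct

namespace Vale.Agent.P181.FR

open Vale.Agent.P181 Vale.Agent.P181.H280 Vale.Agent.P181.H54 MvPolynomial

/-- Row R1. -/
def RMul : Prop := ∀ (b B a m : ℕ) (lam mu : Fin m → ℕ), Pos B a m mu →
    plethMult b a m lam ≤ plethMult (b + B) a m (lam + mu)

/-- Row R5. -/
def RPos : Prop := ∀ (a B n : ℕ) (mu : Fin (n + 3) → ℕ), ∑ i, mu i = a * B → n + 3 ≤ a →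
    mu 1 + B + 4 * (n + 3) ^ 2 * a ≤ mu 0 → mu 2 + (n + 3) ^ 3 + 3 ≤ mu 1 →
    (∀ i j : Fin (n + 3), 1 ≤ i → i ≤ j → mu j ≤ mu i) → Pos B a (n + 3) mu

/-- Row R9. -/
def RRich : Prop := ∀ (b a m : ℕ) (E : Submodule ℂ (Pleth b a m)),
    (∀ g, IsBorel g → ∀ x ∈ E, plethAct b a m g x ∈ E) →
    ∃ lam : Fin m → ℕ, Module.finrank ℂ E ≤ (b * a + 1) ^ (m * m + m) *
      Module.finrank ℂ ↥(E ⊓ hwSpace lam (plethAct b a m))

/-- Row R10, stability. -/
def RStab : Prop := ∀ (b a n k0 : ℕ), ∀ g, IsBorel g → ∀ x ∈ Eb b a n k0,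
    plethAct b a (n + 1) g x ∈ Eb b a n k0

/-- Row R10, weights. -/
def RWeight : Prop := ∀ (b a n k0 : ℕ) (lam : Fin (n + 1) → ℕ) (x : Pleth b a (n + 1)),
    x ∈ Eb b a n k0 → x ∈ hwSpace lam (plethAct b a (n + 1)) → x ≠ 0 → k0 ≤ lam 0

/-- Row R10, sum of the weights. -/
def RSum : Prop := ∀ (b a m : ℕ) (lam : Fin m → ℕ) (x : Pleth b a m),
    x ∈ hwSpace lam (plethAct b a m) → x ≠ 0 → ∑ i, lam i = b * a

/-- Row R11. -/
def RDim : Prop := ∀ (a n r h s : ℕ), h + r * s ≤ a →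
    s ^ (r * h) ≤ Module.finrank ℂ (Eb (r * h) a (n + 2) ((r * h) * (a - (h + r * s))))

/-- Row R12. -/
def RPow : Prop := ∀ (a b m : ℕ) (lam : Fin m → ℕ), plethMult a b m lam ≤ (b + 1) ^ (m * a)

/-- Row R13. -/
def RNum : Prop := ∀ (m p w a b N : ℕ), 3 ≤ m → 2 ≤ p → N = (2 * m + 1) * (2 * p - 1) →
    (N + 1) * w ^ p ≤ a → a ≤ w ^ (2 * p - 1) → b + 1 ≤ a ^ 2 →
    (b + 1) ^ (m * a) * (N * w ^ (2 * p - 1) * a + 1) ^ (m * m + m) ≤ w ^ (N * w ^ (2 * p - 1))

/-- Foulkes' inequality for `(a-1)^2 ≤ b`. -/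
theorem foulkes_quadratic {a b m : ℕ} (hab : (a - 1) ^ 2 ≤ b) (lam : Fin m → ℕ) :
    plethMult a b m lam ≤ plethMult b a m lam := by
  have hinj : ∀ x ∈ hwSpace lam (plethAct a b m), foulkesHowe a b (Fin m → ℂ) x = 0 → x = 0 :=
    fun x _ h0 => foulkesHowe_injective (V := Fin m → ℂ) hab
      (h0.trans (map_zero (foulkesHowe a b (Fin m → ℂ))).symm)
  exact finrank_le_of_inj (foulkesHowe a b (Fin m → ℂ)) _ _
    (fun x hx => H536.foulkesHowe_hwSpace lam x hx) hinj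

/-- The large multiplicity. -/
theorem big_mult (rich : RRich) (Eb_stable : RStab) (Eb_weight : RWeight) (hw_sum : RSum)
    (Eb_dim : RDim) (numer : RNum) {n a b p w N : ℕ} (hp : 2 ≤ p) (hN : N = (2 * (n + 3) + 1) * (2 * p - 1))
    (h1 : (N + 1) * w ^ p ≤ a) (h2 : a ≤ w ^ (2 * p - 1)) (hb : b + 1 ≤ a ^ 2) :
    ∃ lam' : Fin (n + 3) → ℕ,
      (b + 1) ^ ((n + 3) * a) ≤ plethMult (N * w ^ (2 * p - 1)) a (n + 3) lam' ∧
      N * w ^ (2 * p - 1) * (a - (N + 1) * w ^ p) ≤ lam' 0 ∧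
      ∑ i, lam' i = N * w ^ (2 * p - 1) * a := by
  obtain ⟨q, rfl⟩ : ∃ q, p = q + 1 := ⟨p - 1, by omega⟩
  have e1 : w ^ q * (N * w ^ (q + 1)) = N * w ^ (2 * (q + 1) - 1) := by
    have : 2 * (q + 1) - 1 = q + (q + 1) := by omega
    rw [this, pow_add]
    ring
  have e2 : N * w ^ (q + 1) + w ^ q * w = (N + 1) * w ^ (q + 1) := by
    rw [pow_succ]
    ring
  have hdim := Eb_dim a n (w ^ q) (N * w ^ (q + 1)) w
    (by rw [e2]; exact h1)
  rw [e2, e1] at hdim
  have hnum := numer (n + 3) (q + 1) w a b N (by omega) hp hN h1 h2 hb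
  set B := N * w ^ (2 * (q + 1) - 1) with hB
  set k0 := B * (a - (N + 1) * w ^ (q + 1)) with hk0
  obtain ⟨lam', hr⟩ := rich B a (n + 3) (Eb B a (n + 2) k0) (Eb_stable B a (n + 2) k0)
  set F := Module.finrank ℂ ↥(Eb B a (n + 2) k0 ⊓ hwSpace lam' (plethAct B a (n + 2 + 1))) with hF
  set P := (B * a + 1) ^ ((n + 3) * (n + 3) + (n + 3)) with hP
  have hPpos : 0 < P := by positivity
  have h3 : (b + 1) ^ ((n + 3) * a) * P ≤ F * P := by
    refine hnum.trans (hdim.trans (hr.trans (le_of_eq ?_)))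
    rw [Nat.mul_comm]
  have h4 : (b + 1) ^ ((n + 3) * a) ≤ F := Nat.le_of_mul_le_mul_right h3 hPpos
  have hFpos : 0 < F := lt_of_lt_of_le (by positivity) h4
  have hne : Eb B a (n + 2) k0 ⊓ hwSpace lam' (plethAct B a (n + 2 + 1)) ≠ ⊥ := by
    intro h
    rw [hF, h, finrank_bot] at hFpos
    exact lt_irrefl _ hFpos
  obtain ⟨x, hx, hx0⟩ := Submodule.exists_mem_ne_zero_of_ne_bot hne
  refine ⟨lam', h4.trans ?_, Eb_weight _ _ _ _ _ x hx.1 hx.2 hx0, hw_sum _ _ _ _ x hx.2 hx0⟩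
  exact finrank_le_of_inj (LinearMap.id : Pleth B a (n + 2 + 1) →ₗ[ℂ] Pleth B a (n + 2 + 1)) _ _
    (fun x hx => hx.2) (fun x _ h => h)

/-- Antitone from index one on. -/
lemma anti_of_step {n : ℕ} (f : Fin (n + 3) → ℕ)
    (hs : ∀ (k : ℕ) (hk : k + 2 < n + 3), f ⟨k + 2, hk⟩ ≤ f ⟨k + 1, by omega⟩) :
    ∀ i j : Fin (n + 3), 1 ≤ i → i ≤ j → f j ≤ f i := by
  have key : ∀ (d k : ℕ) (hk : k + 1 + d < n + 3),
      f ⟨k + 1 + d, hk⟩ ≤ f ⟨k + 1, by omega⟩ := by
    intro d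
    induction d with
    | zero => intro k hk; exact le_rfl
    | succ d ih =>
      intro k hk
      have h1 := ih k (by omega)
      have h2 := hs (k + d) (by omega)
      have e1 : (⟨k + d + 2, by omega⟩ : Fin (n + 3)) = ⟨k + 1 + (d + 1), hk⟩ :=
        Fin.ext (by simp only []; omega)
      have e2 : (⟨k + d + 1, by omega⟩ : Fin (n + 3)) = ⟨k + 1 + d, by omega⟩ :=
        Fin.ext (by simp only []; omega)
      rw [e1, e2] at h2
      exact h2.trans h1
  intro i j hi hij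
  have hi' : 1 ≤ (i : ℕ) := by
    have := Fin.le_def.1 hi
    rwa [Fin.val_one] at this
  have hij' : (i : ℕ) ≤ j := hij
  have h1 := key ((j : ℕ) - i) ((i : ℕ) - 1) (by omega)
  have e1 : (⟨(i : ℕ) - 1 + 1 + ((j : ℕ) - i), by omega⟩ : Fin (n + 3)) = j :=
    Fin.ext (by simp only []; omega)
  have e2 : (⟨(i : ℕ) - 1 + 1, by omega⟩ : Fin (n + 3)) = i :=
    Fin.ext (by simp only []; omega)
  rw [e1, e2] at h1
  exact h1

/-- The numbers: `w ^ (p - 1)` is at least `N + 1`. -/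
lemma w_bound {n a p w N : ℕ} (hp : 2 ≤ p) (hN : N = (2 * (n + 3) + 1) * (2 * p - 1))
    (ha : 2 ≤ a) (h1 : (N + 1) * w ^ p ≤ a) (h2 : a ≤ w ^ (2 * p - 1)) :
    1 ≤ w ∧ N + 1 ≤ w ^ (p - 1) ∧ 6 * (n + 3) + 4 ≤ N + 1 := by
  have hw : 1 ≤ w := by
    by_contra h
    have h0 : w = 0 := by omega
    rw [h0, zero_pow (by omega)] at h2
    omega
  refine ⟨hw, ?_, ?_⟩
  · have h3 : (N + 1) * w ^ p ≤ w ^ (p - 1) * w ^ p := by
      rw [← pow_add]
      have : p - 1 + p = 2 * p - 1 := by omega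
      rw [this]
      exact h1.trans h2
    exact Nat.le_of_mul_le_mul_right h3 (pow_pos hw p)
  · have h4 : 3 ≤ 2 * p - 1 := by omega
    have h5 := Nat.mul_le_mul_left (2 * (n + 3) + 1) h4
    rw [hN]
    omega

/-- Row R14 from the other rows. -/
theorem final_of (plethMult_mul : RMul) (pos_of : RPos) (rich : RRich) (Eb_stable : RStab)
    (Eb_weight : RWeight) (hw_sum : RSum) (Eb_dim : RDim) (plethMult_le_pow : RPow) (numer : RNum)
    {n a b p w N : ℕ} (hp : 2 ≤ p) (hN : N = (2 * (n + 3) + 1) * (2 * p - 1))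
    (h1 : (N + 1) * w ^ p ≤ a) (h2 : a ≤ w ^ (2 * p - 1)) (lam : Fin (n + 3) → ℕ)
    (hsum : ∑ i, lam i = a * b)
    (hl0 : lam 1 + (N + 2) * w ^ (2 * p - 1) * a ≤ lam 0)
    (hl : ∀ i : Fin (n + 1), lam i.succ.succ + (N + 1) ^ 2 * w ^ (3 * p - 1) ≤ lam i.succ.castSucc)
    (hlast : (N + 1) ^ 2 * w ^ (3 * p - 1) ≤ lam (Fin.last _)) :
    plethMult a b (n + 3) lam ≤ plethMult b a (n + 3) lam := by
  by_cases hq : (a - 1) ^ 2 ≤ b
  · exact foulkes_quadratic hq lam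
  rw [not_le] at hq
  have ha : 2 ≤ a := by
    by_contra h
    have h0 : a - 1 = 0 := by omega
    rw [h0] at hq
    simp at hq
  have hb : b + 1 ≤ a ^ 2 := hq.trans_le (Nat.pow_le_pow_left (Nat.sub_le _ _) 2)
  obtain ⟨hw, hwp, hN4⟩ := w_bound hp hN ha h1 h2
  obtain ⟨lam', hm, hl'0, hl's⟩ := big_mult rich Eb_stable Eb_weight hw_sum Eb_dim numer hp hN h1 h2 hb
  have h0 := plethMult_le_pow a b (n + 3) lam
  set W := w ^ (2 * p - 1) with hW
  set c := (N + 1) * w ^ p with hc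
  set D := (N + 1) ^ 2 * w ^ (3 * p - 1) with hD
  set B := N * W with hB
  -- the small entries of `lam'`
  have hBc : B * c = N * (N + 1) * w ^ (3 * p - 1) := by
    have : 3 * p - 1 = (2 * p - 1) + p := by omega
    rw [hB, hc, hW, this, pow_add]
    ring
  have hBcD : B * c + (N + 1) * w ^ (3 * p - 1) = D := by
    rw [hBc, hD]
    ring
  have hsmall : ∀ i : Fin (n + 3), i ≠ 0 → lam' i ≤ B * c := by
    intro i hi
    have h3 : lam' i + lam' 0 ≤ ∑ i, lam' i := by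
      rw [← Finset.sum_pair hi]
      exact Finset.sum_le_sum_of_subset (Finset.subset_univ _)
    have h4 : B * (a - c) + B * c = B * a := by
      rw [← Nat.mul_add, Nat.sub_add_cancel h1]
    omega
  have hlam'0 : lam' 0 ≤ B * a := by
    rw [← hl's]
    exact Finset.single_le_sum (fun _ _ => Nat.zero_le _) (Finset.mem_univ _)
  -- steps of `lam`
  have hst : ∀ (k : ℕ) (hk : k + 2 < n + 3),
      lam ⟨k + 2, hk⟩ + D ≤ lam ⟨k + 1, by omega⟩ := fun k hk => hl ⟨k, by omega⟩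
  have hDle : ∀ i : Fin (n + 3), i ≠ 0 → D ≤ lam i := by
    intro i hi
    have hi1 : 1 ≤ i := by
      rw [Fin.le_def, Fin.val_one]
      have : (i : ℕ) ≠ 0 := fun h => hi (Fin.ext h)
      omega
    exact hlast.trans (anti_of_step lam (fun k hk => (Nat.le_add_right _ _).trans (hst k hk))
      i _ hi1 (Fin.le_last i))
  have hBa0 : B * a ≤ lam 0 := by
    refine le_trans ?_ ((Nat.le_add_left _ _).trans hl0)
    exact Nat.mul_le_mul_right _ (Nat.mul_le_mul_right _ (by omega))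
  have hle : ∀ i, lam' i ≤ lam i := by
    intro i
    by_cases hi : i = 0
    · rw [hi]; exact hlam'0.trans hBa0
    · exact (hsmall i hi).trans ((by omega : B * c ≤ D).trans (hDle i hi))
  -- the difference
  let mu : Fin (n + 3) → ℕ := fun i => lam i - lam' i
  have hmu : lam' + mu = lam := by
    funext i
    simp only [Pi.add_apply, mu]
    exact Nat.add_sub_cancel' (hle i)
  have hsmu : ∑ i, lam' i + ∑ i, mu i = a * b := by
    rw [← Finset.sum_add_distrib, ← hsum]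
    refine Finset.sum_congr rfl (fun i _ => ?_)
    exact congrFun hmu i
  have hBb : B ≤ b := by
    have : B * a ≤ b * a := by
      rw [← hl's, Nat.mul_comm b a]
      omega
    exact Nat.le_of_mul_le_mul_right this (by omega)
  obtain ⟨b', rfl⟩ := Nat.exists_eq_add_of_le hBb
  have hpos : Pos b' a (n + 3) mu := by
    have hw3 : (6 * (n + 3) + 4) ^ 3 ≤ w ^ (3 * p - 1) := by
      have e1 : 3 * p - 1 = (p - 1) * 3 + 2 := by omega
      rw [e1, pow_add, pow_mul]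
      refine le_trans (Nat.pow_le_pow_left (hN4.trans hwp) 3) ?_
      exact Nat.le_mul_of_pos_right _ (pow_pos hw 2)
    have hw2 : (6 * (n + 3) + 4) ^ 2 ≤ W := by
      have e1 : 2 * p - 1 = (p - 1) * 2 + 1 := by omega
      rw [hW, e1, pow_add, pow_mul]
      refine le_trans (Nat.pow_le_pow_left (hN4.trans hwp) 2) ?_
      exact Nat.le_mul_of_pos_right _ (pow_pos hw 1)
    refine pos_of a b' n mu ?_ ?_ ?_ ?_ ?_
    · have : B * a + ∑ i, mu i = a * (B + b') := by rw [← hl's]; exact hsmu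
      have e : a * (B + b') = B * a + a * b' := by ring
      omega
    · have : N + 1 ≤ (N + 1) * w ^ p := Nat.le_mul_of_pos_right _ (pow_pos hw p)
      omega
    · -- first gap
      have e1 : mu 1 ≤ lam 1 := Nat.sub_le _ _
      have e2 : mu 0 + lam' 0 = lam 0 := Nat.sub_add_cancel (hle 0)
      have e3 : (N + 2) * W * a = B * a + (W * a + W * a) := by rw [hB]; ring
      have e4 : b' ≤ W * a := by
        have : b' + 1 ≤ a ^ 2 := by omega
        have h5 : a * a ≤ W * a := Nat.mul_le_mul_right _ h2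
        rw [pow_two] at this
        omega
      have e5 : 4 * (n + 3) ^ 2 * a ≤ W * a := by
        refine Nat.mul_le_mul_right _ (le_trans ?_ hw2)
        have : (2 * (n + 3)) ^ 2 ≤ (6 * (n + 3) + 4) ^ 2 := Nat.pow_le_pow_left (by omega) 2
        refine le_trans (le_of_eq ?_) this
        ring
      rw [e3] at hl0
      omega
    · have e0 : (n + 3) ^ 3 + 3 ≤ (N + 1) * w ^ (3 * p - 1) := by
        have h5 : (n + 3) ^ 3 + 3 ≤ (6 * (n + 3) + 4) ^ 3 := by
          have : (6 * (n + 3) + 4) ^ 3 = (n + 3) ^ 3 + 3 +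
            (215 * (n + 3) ^ 3 + 432 * (n + 3) ^ 2 + 288 * (n + 3) + 61) := by ring
          omega
        exact h5.trans (hw3.trans (Nat.le_mul_of_pos_left _ (by omega)))
      have e1 := hst 0 (by omega)
      have e2 : (⟨0 + 2, by omega⟩ : Fin (n + 3)) = 2 := Fin.ext Fin.val_two.symm
      have e3 : (⟨0 + 1, by omega⟩ : Fin (n + 3)) = 1 := Fin.ext (by simp)
      rw [e2, e3] at e1
      have e4 : mu 2 ≤ lam 2 := Nat.sub_le _ _
      have e5 : mu 1 + lam' 1 = lam 1 := Nat.sub_add_cancel (hle 1)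
      have e6 := hsmall 1 (by intro h; exact absurd (congrArg Fin.val h) (by simp))
      omega
    · apply anti_of_step
      intro k hk
      have e1 := hst k hk
      have e4 : mu ⟨k + 2, hk⟩ ≤ lam ⟨k + 2, hk⟩ := Nat.sub_le _ _
      have e5 : mu ⟨k + 1, by omega⟩ + lam' ⟨k + 1, by omega⟩ = lam ⟨k + 1, by omega⟩ :=
        Nat.sub_add_cancel (hle _)
      have e6 := hsmall ⟨k + 1, by omega⟩ (by
        intro h; exact absurd (congrArg Fin.val h) (by simp))
      omega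
  have h5 := plethMult_mul B b' a (n + 3) lam' mu hpos
  rw [hmu] at h5
  exact h0.trans (hm.trans h5)

end Vale.Agent.P181.FR
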