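import Vale.Agent.P181.R2.H207.Eps2

set_option autoImplicit false

open scoped TensorProduct

namespace Vale.Agent.P181.FR

open Vale.Agent.P181 Vale.Agent.P181.H280

/-- Row T1: the dimension of `Sym^b (Sym^c C^(n+3))` from below. -/
def TDim : Prop := ∀ {b c n h s : ℕ}, (n + 2) * h ≤ c → s * b ≤ h ^ (n + 2) →
    s ^ b ≤ Module.finrank ℂ (Pleth b c (n + 3))

/-- Row T2: the multiplicities from above. -/
def TFac : Prop := ∀ (a b n : ℕ) (lam : Fin (n + 1) → ℕ),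
    a.factorial * plethMult a b (n + 1) lam ≤ ((b + 1) ^ n + a) ^ a

/-- Row T3: the numbers. -/
def TNum : Prop := ∀ (n : ℕ) {δ : ℝ}, 0 < δ → ∀ (K : ℕ), ∃ η : ℝ, 0 < η ∧ η < 1 ∧
    ∃ A : ℕ, ∀ a b : ℕ, A ≤ a → (1 + δ) * a ≤ b → b ≤ K * a → ∃ c h s : ℕ,
      (c : ℝ) ≤ (a : ℝ) ^ (1 - η) ∧ c + (n + 3) ≤ a ∧ (n + 2) * h ≤ c ∧ s * b ≤ h ^ (n + 2) ∧
      ∀ L : ℕ, a.factorial * L ≤ ((b + 1) ^ (n + 2) + a) ^ a →
        L * (b * c + 1) ^ ((n + 3) * (n + 3) + (n + 3)) ≤ s ^ b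

/-- Row T4: the theorem with a rich module at the same `b`. -/
def TCore : Prop := ∀ {n a b c : ℕ} (L : ℕ),
    (∀ lam : Fin (n + 3) → ℕ, plethMult a b (n + 3) lam ≤ L) → 0 < L →
    L * (b * c + 1) ^ ((n + 3) * (n + 3) + (n + 3)) ≤ Module.finrank ℂ (Pleth b c (n + 3)) →
    c + (n + 3) ≤ a → ∀ (lam : Fin (n + 3) → ℕ), ∑ i, lam i = a * b →
    lam 1 + c * b + b + 4 * (n + 3) ^ 2 * a ≤ lam 0 →
    (∀ i : Fin (n + 1), lam i.succ.succ + c * b + (n + 3) ^ 3 + 3 ≤ lam i.succ.castSucc) →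
    c * b ≤ lam (Fin.last _) → plethMult a b (n + 3) lam ≤ plethMult b a (n + 3) lam

/-- **Foulkes' inequality for all `b ≥ (1 + δ) a` and almost all partitions with `n + 3` rows**,
from the rows. -/
theorem final_delta_of (HF : Final2) (H1 : TDim) (H2 : TFac) (H3 : TNum) (H4 : TCore)
    (n : ℕ) {δ : ℝ} (hδ : 0 < δ) :
    ∃ C η : ℝ, 0 < C ∧ 0 < η ∧ η < 1 ∧ ∀ (a b : ℕ) (lam : Fin (n + 3) → ℕ),
      (1 + δ) * a ≤ b → ∑ i, lam i = a * b →
      (lam 1 : ℝ) + C * (b + (a : ℝ) ^ (2 - η)) ≤ lam 0 →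
      (∀ i : Fin (n + 1), (lam i.succ.succ : ℝ) + C * (a : ℝ) ^ (2 - η) ≤
        lam i.succ.castSucc) →
      C * (a : ℝ) ^ (2 - η) ≤ lam (Fin.last _) →
      plethMult a b (n + 3) lam ≤ plethMult b a (n + 3) lam := by
  obtain ⟨C2, hC2, hF⟩ := final2_eps HF n (ε := 1 / 4) (by norm_num)
  set K := ⌈C2⌉₊ with hK
  have hKC : C2 ≤ K := Nat.le_ceil _
  obtain ⟨η, hη0, hη1, A, hA⟩ := H3 n hδ K
  set θ := min η (1 / 4) with hθ
  have hθη : θ ≤ η := min_le_left _ _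
  have hθ4 : θ ≤ 1 / 4 := min_le_right _ _
  have hθ0 : 0 < θ := lt_min hη0 (by norm_num)
  set C : ℝ := C2 + (n + 5) + K + (A : ℝ) ^ 3 + 4 * (n + 3) ^ 2 + (n + 3) ^ 3 + 3 with hC
  have hn0 : (0 : ℝ) ≤ n := Nat.cast_nonneg _
  have hK0 : (0 : ℝ) ≤ K := Nat.cast_nonneg _
  have hA0 : (0 : ℝ) ≤ (A : ℝ) ^ 3 := by positivity
  have hn2 : (0 : ℝ) ≤ 4 * ((n : ℝ) + 3) ^ 2 := by positivity
  have hn3 : (0 : ℝ) ≤ ((n : ℝ) + 3) ^ 3 := by positivity
  have hC0 : 0 < C := by rw [hC]; linarith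
  refine ⟨C, θ, hC0, hθ0, by linarith, ?_⟩
  intro a b lam hab hsum h0 hl hlast
  by_cases hquad : (a - 1) ^ 2 ≤ b
  · exact foulkes_quadratic hquad lam
  rw [not_le] at hquad
  have ha : 2 ≤ a := by
    by_contra h
    have h0 : a - 1 = 0 := by omega
    rw [h0] at hquad
    simp at hquad
  have ha1 : (1 : ℝ) ≤ a := by exact_mod_cast (by omega : 1 ≤ a)
  have hab1 : (a : ℝ) ≤ b := by nlinarith
  set X := (a : ℝ) ^ (2 - θ) with hX
  have hX1 : 1 ≤ X := Real.one_le_rpow ha1 (by linarith)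
  have hX0 : 0 ≤ X := by linarith
  have hb0 : (0 : ℝ) ≤ b := Nat.cast_nonneg _
  by_cases hKb : K * a < b
  · have h7 : (a : ℝ) ^ ((3 : ℝ) / 2 + 1 / 4) ≤ X :=
      Real.rpow_le_rpow_of_exponent_le ha1 (by linarith)
    have h8 : C2 * (a : ℝ) ^ ((3 : ℝ) / 2 + 1 / 4) ≤ C * X :=
      mul_le_mul (by rw [hC]; linarith) h7 (by positivity) hC0.le
    apply hF a b lam hsum
    · have : ((K * a : ℕ) : ℝ) ≤ b := by exact_mod_cast hKb.le
      push_cast at this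
      nlinarith
    · have h9 : ((n : ℝ) + 5) * b ≤ C * b :=
        mul_le_mul_of_nonneg_right (by rw [hC]; linarith) hb0
      have : C * (b + X) = C * b + C * X := by ring
      linarith
    · intro i
      have := hl i
      linarith
    · linarith
  rw [not_lt] at hKb
  by_cases hAa : A ≤ a
  · obtain ⟨c, h, s, hc1, hc2, hc3, hc4, hc5⟩ := hA a b hAa hab hKb
    have hcb : ((c * b : ℕ) : ℝ) ≤ K * X := by
      have e1 : ((c * b : ℕ) : ℝ) ≤ (a : ℝ) ^ (1 - η) * (K * a) := by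
        push_cast
        refine mul_le_mul hc1 (by exact_mod_cast hKb) hb0 (by positivity)
      have e2 : (a : ℝ) ^ (1 - η) * (K * a) = K * (a : ℝ) ^ (2 - η) := by
        have : (a : ℝ) ^ (2 - η) = (a : ℝ) ^ (1 - η) * a := by
          rw [show (2 - η : ℝ) = (1 - η) + 1 by ring, Real.rpow_add_one (by linarith)]
        rw [this]; ring
      have e3 : (a : ℝ) ^ (2 - η) ≤ X := Real.rpow_le_rpow_of_exponent_le ha1 (by linarith)
      rw [e2] at e1
      exact e1.trans (mul_le_mul_of_nonneg_left e3 hK0)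
    have hfac : 0 < a.factorial := Nat.factorial_pos _
    have hXL : a.factorial ≤ ((b + 1) ^ (n + 2) + a) ^ a :=
      (Nat.factorial_le_pow a).trans (Nat.pow_le_pow_left (Nat.le_add_left _ _) _)
    refine H4 (((b + 1) ^ (n + 2) + a) ^ a / a.factorial) ?_ (Nat.div_pos hXL hfac) ?_ hc2 lam
      hsum ?_ ?_ ?_
    · intro mu
      rw [Nat.le_div_iff_mul_le hfac, mul_comm]
      exact H2 a b (n + 2) mu
    · exact (hc5 _ (Nat.mul_div_le _ _)).trans (H1 hc3 hc4)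
    · have : ((lam 1 + c * b + b + 4 * (n + 3) ^ 2 * a : ℕ) : ℝ) ≤ lam 0 := by
        push_cast
        push_cast at hcb
        have e4 : 4 * ((n : ℝ) + 3) ^ 2 * a ≤ 4 * ((n : ℝ) + 3) ^ 2 * b :=
          mul_le_mul_of_nonneg_left hab1 hn2
        have e5 : C * (b + X) = (K * X + (b + 4 * ((n : ℝ) + 3) ^ 2 * b)) +
            ((C - (1 + 4 * ((n : ℝ) + 3) ^ 2)) * b + (C - K) * X) := by ring
        have e6 : 0 ≤ (C - (1 + 4 * ((n : ℝ) + 3) ^ 2)) * b :=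
          mul_nonneg (by rw [hC]; linarith) hb0
        have e7 : 0 ≤ (C - K) * X := mul_nonneg (by rw [hC]; linarith) hX0
        linarith
      exact_mod_cast this
    · intro i
      have : ((lam i.succ.succ + c * b + (n + 3) ^ 3 + 3 : ℕ) : ℝ) ≤ lam i.succ.castSucc := by
        push_cast
        push_cast at hcb
        have e5 : C * X = K * X + (((n : ℝ) + 3) ^ 3 + 3) * X +
            (C - (K + (((n : ℝ) + 3) ^ 3 + 3))) * X := by ring
        have e6 : 0 ≤ (C - (K + (((n : ℝ) + 3) ^ 3 + 3))) * X :=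
          mul_nonneg (by rw [hC]; linarith) hX0
        have e7 : (((n : ℝ) + 3) ^ 3 + 3) * 1 ≤ (((n : ℝ) + 3) ^ 3 + 3) * X :=
          mul_le_mul_of_nonneg_left hX1 (by linarith)
        have e8 := hl i
        linarith
      exact_mod_cast this
    · have : ((c * b : ℕ) : ℝ) ≤ lam (Fin.last _) := by
        have e6 : 0 ≤ (C - K) * X := mul_nonneg (by rw [hC]; linarith) hX0
        linarith
      exact_mod_cast this
  · exfalso
    rw [not_le] at hAa
    have h1 : lam (Fin.last _) ≤ a * b := by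
      rw [← hsum]
      exact Finset.single_le_sum (f := lam) (fun _ _ => Nat.zero_le _) (Finset.mem_univ _)
    have h2 : (a - 1) ^ 2 ≤ A ^ 2 := Nat.pow_le_pow_left (by omega) 2
    have h3 : a * b < A ^ 3 := by
      have : a * b < A * A ^ 2 :=
        Nat.mul_lt_mul_of_lt_of_le hAa (by omega) (pow_pos (by omega) 2)
      calc a * b < A * A ^ 2 := this
        _ = A ^ 3 := by ring
    have h4 : ((lam (Fin.last _) : ℕ) : ℝ) < (A : ℝ) ^ 3 := by
      exact_mod_cast lt_of_le_of_lt h1 h3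
    have h5 : C * 1 ≤ C * X := mul_le_mul_of_nonneg_left hX1 hC0.le
    have h6 : (A : ℝ) ^ 3 ≤ C := by rw [hC]; linarith
    linarith

end Vale.Agent.P181.FR
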