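import Vale.Agent.P181.R2.H207.Eps2
import Vale.Agent.P181.R2.H182.Final2

set_option autoImplicit false

open scoped TensorProduct

namespace Vale.Agent.P181.FR

open Vale.Agent.P181 Vale.Agent.P181.H280

theorem final2_prop : Final2 := fun hp hN h1 h2 h3 => final2 hp hN h1 h2 h3

/-- **Foulkes' inequality for all `b ≥ C a` and almost all partitions with `n + 3` rows.** -/
theorem final_lin (n : ℕ) {ε : ℝ} (hε : 0 < ε) :
    ∃ C : ℝ, 0 < C ∧ ∀ (a b : ℕ) (lam : Fin (n + 3) → ℕ), ∑ i, lam i = a * b →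
      C * a ≤ b →
      (lam 1 : ℝ) + ((n + 5) * b + C * (a : ℝ) ^ (3 / 2 + ε)) ≤ lam 0 →
      (∀ i : Fin (n + 1), (lam i.succ.succ : ℝ) + C * (a : ℝ) ^ (3 / 2 + ε) ≤
        lam i.succ.castSucc) →
      C * (a : ℝ) ^ (3 / 2 + ε) ≤ lam (Fin.last _) →
      plethMult a b (n + 3) lam ≤ plethMult b a (n + 3) lam :=
  final2_eps final2_prop n hε

end Vale.Agent.P181.FR
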