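import Vale.Agent.P181.R2.H207.Delta
import Vale.Agent.P181.R2.H207.Eps3
import Vale.Agent.P181.R2.H130.CoreB
import Vale.Agent.P181.R2.H415.DimGe

set_option autoImplicit false

open scoped TensorProduct

namespace Vale.Agent.P181.FR

open Vale.Agent.P181 Vale.Agent.P181.H280

theorem tcore : TCore := fun L hL hL0 hD hc lam hsum h0 hl hlast =>
  core_b_of (fun h => plethMult_pt h) L hL hL0 hD hc lam hsum h0 hl hlast

theorem tdim : TDim := fun hc hs => dim_ge hc hs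

/-- The theorem for `b ≥ (1 + δ) a`, from the rows T2 and T3. -/
theorem final_delta_two (H2 : TFac) (H3 : TNum) (n : ℕ) {δ : ℝ} (hδ : 0 < δ) :
    ∃ C η : ℝ, 0 < C ∧ 0 < η ∧ η < 1 ∧ ∀ (a b : ℕ) (lam : Fin (n + 3) → ℕ),
      (1 + δ) * a ≤ b → ∑ i, lam i = a * b →
      (lam 1 : ℝ) + C * (b + (a : ℝ) ^ (2 - η)) ≤ lam 0 →
      (∀ i : Fin (n + 1), (lam i.succ.succ : ℝ) + C * (a : ℝ) ^ (2 - η) ≤
        lam i.succ.castSucc) →
      C * (a : ℝ) ^ (2 - η) ≤ lam (Fin.last _) →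
      plethMult a b (n + 3) lam ≤ plethMult b a (n + 3) lam :=
  final_delta_of final2_prop tdim H2 H3 tcore n hδ

end Vale.Agent.P181.FR
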