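import Vale.Agent.P181.R2.H207.Delta2
import Vale.Agent.P181.R2.H539.Fac
import Vale.Agent.P181.R2.H415.Numer3

set_option autoImplicit false

open scoped TensorProduct

namespace Vale.Agent.P181.FR

open Vale.Agent.P181 Vale.Agent.P181.H280

theorem tfac : TFac := fun a b n lam => plethMult_le_fac a b n lam

theorem tnum : TNum := fun n _ hδ K => numer3 n hδ K

/-- **Foulkes' inequality for all `b ≥ (1 + δ) a` and almost all partitions with `n + 3` rows.** -/
theorem final_delta (n : ℕ) {δ : ℝ} (hδ : 0 < δ) :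
    ∃ C η : ℝ, 0 < C ∧ 0 < η ∧ η < 1 ∧ ∀ (a b : ℕ) (lam : Fin (n + 3) → ℕ),
      (1 + δ) * a ≤ b → ∑ i, lam i = a * b →
      (lam 1 : ℝ) + C * (b + (a : ℝ) ^ (2 - η)) ≤ lam 0 →
      (∀ i : Fin (n + 1), (lam i.succ.succ : ℝ) + C * (a : ℝ) ^ (2 - η) ≤
        lam i.succ.castSucc) →
      C * (a : ℝ) ^ (2 - η) ≤ lam (Fin.last _) →
      plethMult a b (n + 3) lam ≤ plethMult b a (n + 3) lam :=
  final_delta_two tfac tnum n hδ

end Vale.Agent.P181.FR
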