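import Vale.Agent.P181.R2.H207.Eps

set_option autoImplicit false

open scoped TensorProduct

namespace Vale.Agent.P181.FR

open Vale.Agent.P181 Vale.Agent.P181.H280

/-- The explicit theorem with first gap `(n + 5) b`. -/
def Final2 : Prop := ∀ {n a b p w N : ℕ}, 2 ≤ p → N = (2 * (n + 3) + 1) * (2 * p - 1) →
    2 * ((N + 1) * w ^ p) ≤ a → a ≤ w ^ (2 * p - 1) → 2 * (N * w ^ (2 * p - 1)) ≤ b →
    ∀ lam : Fin (n + 3) → ℕ, ∑ i, lam i = a * b →
    lam 1 + (n + 5) * b + (N + 1) ^ 2 * w ^ (3 * p - 1) ≤ lam 0 →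
    (∀ i : Fin (n + 1), lam i.succ.succ + (N + 1) ^ 2 * w ^ (3 * p - 1) ≤ lam i.succ.castSucc) →
    (N + 1) ^ 2 * w ^ (3 * p - 1) ≤ lam (Fin.last _) →
    plethMult a b (n + 3) lam ≤ plethMult b a (n + 3) lam

/-- **Foulkes' inequality for all `b ≥ C a` and almost all partitions with `n + 3` rows.** -/
theorem final2_eps (H : Final2) (n : ℕ) {ε : ℝ} (hε : 0 < ε) :
    ∃ C : ℝ, 0 < C ∧ ∀ (a b : ℕ) (lam : Fin (n + 3) → ℕ), ∑ i, lam i = a * b →
      C * a ≤ b →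
      (lam 1 : ℝ) + ((n + 5) * b + C * (a : ℝ) ^ (3 / 2 + ε)) ≤ lam 0 →
      (∀ i : Fin (n + 1), (lam i.succ.succ : ℝ) + C * (a : ℝ) ^ (3 / 2 + ε) ≤
        lam i.succ.castSucc) →
      C * (a : ℝ) ^ (3 / 2 + ε) ≤ lam (Fin.last _) →
      plethMult a b (n + 3) lam ≤ plethMult b a (n + 3) lam := by
  obtain ⟨k, hk⟩ := exists_nat_gt (1 / ε)
  set p := k + 2 with hp
  set q := 2 * p - 1 with hq
  set N := (2 * (n + 3) + 1) * q with hN
  set K := 2 * (N + 1) * 2 ^ q with hK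
  have hK1 : 1 ≤ K := Nat.one_le_iff_ne_zero.2 (by positivity)
  set C : ℕ := 2 * N * 2 ^ q + (N + 1) ^ 2 * 2 ^ (3 * p - 1) + K ^ q with hC
  have hCpos : 0 < C := by positivity
  refine ⟨C, by exact_mod_cast hCpos, ?_⟩
  intro a b lam hsum hab h0 hl hlast
  have hab' : C * a ≤ b := by exact_mod_cast hab
  by_cases hquad : (a - 1) ^ 2 ≤ b
  · exact foulkes_quadratic hquad lam
  rw [not_le] at hquad
  have ha : 2 ≤ a := by
    by_contra h
    have h0 : a - 1 = 0 := by omega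
    rw [h0] at hquad
    simp at hquad
  have ha1 : (1 : ℝ) ≤ a := by exact_mod_cast (by omega : 1 ≤ a)
  have haK : K ^ q ≤ a := by
    by_contra h
    rw [not_le] at h
    have h1 : a ≤ C := (h.trans_le (by rw [hC]; exact Nat.le_add_left _ _)).le
    have h2 : (a - 1) ^ 2 ≤ a * a := by
      rw [pow_two]
      exact Nat.mul_le_mul (Nat.sub_le _ _) (Nat.sub_le _ _)
    have h3 : a * a ≤ C * a := Nat.mul_le_mul_right _ h1
    omega
  obtain ⟨w, hw1, hw2, hw3⟩ := exists_root (a := a) (q := q) (by omega) (by omega)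
  have hwK : K ≤ w := by
    by_contra h
    rw [not_le] at h
    have : w ^ q < K ^ q := Nat.pow_lt_pow_left h (by omega)
    omega
  have hqp : q = p - 1 + p := by omega
  have h1 : 2 * (N + 1) * w ^ p ≤ a := by
    have h2 : K * w ^ p ≤ 2 ^ q * a := by
      have hle : w ≤ w ^ (p - 1) := Nat.le_self_pow (by omega) w
      refine le_trans ?_ hw3
      have e : w ^ q = w ^ (p - 1) * w ^ p := by rw [← pow_add, ← hqp]
      rw [e]
      exact Nat.mul_le_mul_right _ (hwK.trans hle)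
    have h3 : 2 ^ q * (2 * (N + 1) * w ^ p) ≤ 2 ^ q * a := by
      refine le_trans (le_of_eq ?_) h2
      rw [hK]
      ring
    exact Nat.le_of_mul_le_mul_left h3 (by positivity)
  -- the real estimate
  have hwr : (w : ℝ) ≤ 2 * (a : ℝ) ^ (1 / (q : ℝ)) := by
    have hq0 : (0 : ℝ) < q := by exact_mod_cast (by omega : 0 < q)
    have h2 : ((w : ℝ)) ^ q ≤ (2 * (a : ℝ) ^ (1 / (q : ℝ))) ^ q := by
      rw [mul_pow, ← Real.rpow_natCast ((a : ℝ) ^ (1 / (q : ℝ))) q, ← Real.rpow_mul (by positivity),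
        one_div, inv_mul_cancel₀ hq0.ne', Real.rpow_one]
      exact_mod_cast hw3
    exact le_of_pow_le_pow_left₀ (by omega) (by positivity) h2
  have hgap : ((N + 1) ^ 2 * w ^ (3 * p - 1) : ℕ) ≤ C * (a : ℝ) ^ (3 / 2 + ε) := by
    have hq0 : (0 : ℝ) < q := by exact_mod_cast (by omega : 0 < q)
    have h2 : (w : ℝ) ^ (3 * p - 1) ≤ 2 ^ (3 * p - 1) * (a : ℝ) ^ (3 / 2 + ε) := by
      refine (pow_le_pow_left₀ (by positivity) hwr _).trans ?_
      rw [mul_pow]
      refine mul_le_mul_of_nonneg_left ?_ (by positivity)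
      rw [← Real.rpow_natCast, ← Real.rpow_mul (by positivity)]
      refine Real.rpow_le_rpow_of_exponent_le ha1 ?_
      have e1 : ((3 * p - 1 : ℕ) : ℝ) = 3 * (k : ℝ) + 5 := by
        have : 3 * p - 1 = 3 * k + 5 := by omega
        rw [this]; push_cast; ring
      have e2 : (q : ℝ) = 2 * (k : ℝ) + 3 := by
        have : q = 2 * k + 3 := by omega
        rw [this]; push_cast; ring
      rw [e1, e2, one_div, inv_mul_le_iff₀ (by positivity)]
      have h5 : 1 < k * ε := by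
        rw [div_lt_iff₀ hε] at hk
        exact hk
      have hk0 : (0 : ℝ) ≤ k := by positivity
      nlinarith
    have h3 : ((N + 1) ^ 2 * 2 ^ (3 * p - 1) : ℕ) ≤ (C : ℝ) := by
      exact_mod_cast (by rw [hC]; omega)
    calc (((N + 1) ^ 2 * w ^ (3 * p - 1) : ℕ) : ℝ)
        = ((N : ℝ) + 1) ^ 2 * (w : ℝ) ^ (3 * p - 1) := by push_cast; ring
      _ ≤ ((N : ℝ) + 1) ^ 2 * (2 ^ (3 * p - 1) * (a : ℝ) ^ (3 / 2 + ε)) :=
          mul_le_mul_of_nonneg_left h2 (by positivity)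
      _ = (((N + 1) ^ 2 * 2 ^ (3 * p - 1) : ℕ) : ℝ) * (a : ℝ) ^ (3 / 2 + ε) := by
          push_cast; ring
      _ ≤ C * (a : ℝ) ^ (3 / 2 + ε) := mul_le_mul_of_nonneg_right h3 (by positivity)
  have hg : ∀ x y : ℕ, (x : ℝ) + C * (a : ℝ) ^ (3 / 2 + ε) ≤ y →
      x + (N + 1) ^ 2 * w ^ (3 * p - 1) ≤ y := by
    intro x y h
    have h3 : (x : ℝ) + (((N + 1) ^ 2 * w ^ (3 * p - 1) : ℕ) : ℝ) ≤ y := by linarith
    exact_mod_cast h3
  refine H (p := p) (w := w) (N := N) (by omega) hN (by rw [← mul_assoc]; exact h1) hw2 ?_ lam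
    hsum ?_ (fun i => hg _ _ (hl i)) ?_
  · refine le_trans ?_ hab'
    rw [← mul_assoc]
    calc 2 * N * w ^ q ≤ 2 * N * (2 ^ q * a) := Nat.mul_le_mul_left _ hw3
      _ = 2 * N * 2 ^ q * a := by ring
      _ ≤ C * a := Nat.mul_le_mul_right _ (by rw [hC]; omega)
  · have h4 := hg (lam 1 + (n + 5) * b) (lam 0) (by push_cast; linarith)
    omega
  · have h4 := hg 0 (lam (Fin.last _)) (by push_cast; linarith)
    omega

end Vale.Agent.P181.FR
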