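import Vale.Agent.P181.R2.H959.FDefs

set_option autoImplicit false

open scoped TensorProduct

namespace Vale.Agent.P181.FR

open Vale.Agent.P181 Vale.Agent.P181.H280

section

variable {W : Type} [AddCommMonoid W] [Module ℂ W]

/-- Products of members of a spanning family span the symmetric power. -/
lemma span_tprod_of_span {ι : Type} [Fintype ι] (s : ι → W)
    (hs : Submodule.span ℂ (Set.range s) = ⊤) (a : ℕ) :
    Submodule.span ℂ (Set.range fun f : Fin a → ι =>
      SymmetricPower.tprod ℂ (fun j => s (f j))) = ⊤ := by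
  classical
  rw [eq_top_iff, ← SymmetricPower.span_tprod_eq_top, Submodule.span_le]
  rintro _ ⟨v, rfl⟩
  have hv : ∀ j, ∃ c : ι → ℂ, ∑ i, c i • s i = v j := by
    intro j
    have h1 : v j ∈ Submodule.span ℂ (Set.range s) := by rw [hs]; trivial
    exact (Submodule.mem_span_range_iff_exists_fun ℂ).1 h1
  choose c hc using hv
  have h2 : v = fun j => ∑ i, c j i • s i := funext fun j => (hc j).symm
  rw [h2, MultilinearMap.map_sum]
  refine Submodule.sum_mem _ (fun f _ => ?_)
  rw [MultilinearMap.map_smul_univ (SymmetricPower.tprod ℂ) (fun j => c j (f j))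
    (fun j => s (f j))]
  exact Submodule.smul_mem _ _ (Submodule.subset_span ⟨f, rfl⟩)

/-- Words with the same letter counts have the same product. -/
lemma tprod_eq_of_count {ι : Type} [DecidableEq ι] (s : ι → W) {b : ℕ} (c c' : Fin b → ι)
    (h : ∀ i, Fintype.card {j // c j = i} = Fintype.card {j // c' j = i}) :
    SymmetricPower.tprod ℂ (fun j => s (c j)) = SymmetricPower.tprod ℂ (fun j => s (c' j)) := by
  let e : ∀ i, {j // c j = i} ≃ {j // c' j = i} := fun i =>
    Classical.choice (Fintype.card_eq.1 (h i))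
  let σ : Fin b ≃ Fin b := (Equiv.sigmaFiberEquiv c).symm.trans
    ((Equiv.sigmaCongrRight e).trans (Equiv.sigmaFiberEquiv c'))
  have hσ : ∀ j, c' (σ j) = c j := fun j => (e (c j) ⟨j, rfl⟩).2
  have h1 : (fun j => s (c j)) = fun j => s (c' (σ j)) := funext fun j => by rw [hσ]
  rw [h1]
  exact SymmetricPower.tprod_equiv σ (fun j => s (c' j))

/-- A spanning family of `Sym^b` indexed by the letter counts. -/
lemma exists_count_family {m : ℕ} (s : Fin m → W)
    (hs : Submodule.span ℂ (Set.range s) = ⊤) (b : ℕ) :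
    ∃ u : (Fin m → Fin (b + 1)) → Sym[ℂ]^b W, Submodule.span ℂ (Set.range u) = ⊤ := by
  classical
  refine ⟨fun κ => if h : ∃ c : Fin b → Fin m, ∀ i, Fintype.card {j // c j = i} = κ i then
    SymmetricPower.tprod ℂ (fun j => s (h.choose j)) else 0, ?_⟩
  rw [eq_top_iff, ← span_tprod_of_span s hs b]
  refine Submodule.span_mono ?_
  rintro _ ⟨c, rfl⟩
  have hle : ∀ i, Fintype.card {j // c j = i} < b + 1 := by
    intro i
    have := Fintype.card_subtype_le (fun j => c j = i)
    rw [Fintype.card_fin] at this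
    omega
  have hex : ∃ c' : Fin b → Fin m, ∀ i, Fintype.card {j // c' j = i} =
      ((fun i => (⟨Fintype.card {j // c j = i}, hle i⟩ : Fin (b + 1))) i : Fin (b + 1)) :=
    ⟨c, fun i => rfl⟩
  refine ⟨fun i => ⟨Fintype.card {j // c j = i}, hle i⟩, ?_⟩
  dsimp only
  rw [dif_pos hex]
  exact tprod_eq_of_count s _ _ (fun i => hex.choose_spec i)

lemma finrank_le_card {ι : Type} [Fintype ι] (u : ι → W)
    (hu : Submodule.span ℂ (Set.range u) = ⊤) : Module.finrank ℂ W ≤ Fintype.card ι := by
  let _ := Module.addCommMonoidToAddCommGroup ℂ (M := W)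
  have h1 := finrank_range_le_card (R := ℂ) u
  rw [Set.finrank, hu, finrank_top] at h1
  exact h1

end

/-- Row R12. -/
theorem plethMult_le_pow (a b m : ℕ) (lam : Fin m → ℕ) :
    plethMult a b m lam ≤ (b + 1) ^ (m * a) := by
  classical
  have hs : Submodule.span ℂ (Set.range fun i : Fin m => (Pi.single i 1 : Fin m → ℂ)) = ⊤ := by
    rw [← (Pi.basisFun ℂ (Fin m)).span_eq]
    congr 1
    ext x
    simp [Pi.basisFun_apply]
  obtain ⟨u, hu⟩ := exists_count_family _ hs b
  have h1 := span_tprod_of_span u hu a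
  have h2 : Module.finrank ℂ (Pleth a b m) ≤ Fintype.card (Fin a → Fin m → Fin (b + 1)) :=
    finrank_le_card _ h1
  have h3 : plethMult a b m lam ≤ Module.finrank ℂ (Pleth a b m) := by
    have : Module.Finite ℂ (Pleth a b m) :=
      ⟨⟨(Set.finite_range _).toFinset, by rw [Set.Finite.coe_toFinset]; exact h1⟩⟩
    rw [← finrank_top (R := ℂ) (M := Pleth a b m)]
    exact finrank_le_of_inj (LinearMap.id : Pleth a b m →ₗ[ℂ] Pleth a b m) _ _
      (fun x _ => Submodule.mem_top) (fun x _ h => h)
  refine h3.trans (h2.trans (le_of_eq ?_))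
  simp only [Fintype.card_fun, Fintype.card_fin, ← pow_mul]

end Vale.Agent.P181.FR
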