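import Vale.Agent.P181.R2.H207.FinalOf
import Vale.Agent.P181.R2.H207.Pow
import Vale.Agent.P181.R2.H822.FR9
import Vale.Agent.P181.R2.H130.R10
import Vale.Agent.P181.R2.H539.Eb
import Vale.Agent.P181.R2.H764.FR13
import Vale.Agent.P181.R2.H723.FR5
import Vale.Agent.P181.R2.H277.FR4
import Vale.Agent.P181.R2.H959.FMul

set_option autoImplicit false

open scoped TensorProduct

namespace Vale.Agent.P181.FR

open Vale.Agent.P181 Vale.Agent.P181.H280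

theorem pos_of {a B n : ℕ} (mu : Fin (n + 3) → ℕ) (hsum : ∑ i, mu i = a * B) (ha : n + 3 ≤ a)
    (h0 : mu 1 + B + 4 * (n + 3) ^ 2 * a ≤ mu 0) (h1 : mu 2 + (n + 3) ^ 3 + 3 ≤ mu 1)
    (hanti : ∀ i j : Fin (n + 3), 1 ≤ i → i ≤ j → mu j ≤ mu i) : Pos B a (n + 3) mu :=
  pos_of_rows (fun h h' => Pos.mul h h') Pos.zero gen0 (fun h1 h2 h3 h4 => genD h1 h2 h3 h4)
    (fun h1 h2 h3 => genE h1 h2 h3) (fun h1 h2 => genE2 h1 h2) mu hsum ha h0 h1 hanti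

/-- Foulkes' inequality in the interior of the set of partitions with `n + 3` rows. -/
theorem final {n a b p w N : ℕ} (hp : 2 ≤ p) (hN : N = (2 * (n + 3) + 1) * (2 * p - 1))
    (h1 : (N + 1) * w ^ p ≤ a) (h2 : a ≤ w ^ (2 * p - 1)) (lam : Fin (n + 3) → ℕ)
    (hsum : ∑ i, lam i = a * b)
    (hl0 : lam 1 + (N + 2) * w ^ (2 * p - 1) * a ≤ lam 0)
    (hl : ∀ i : Fin (n + 1), lam i.succ.succ + (N + 1) ^ 2 * w ^ (3 * p - 1) ≤ lam i.succ.castSucc)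
    (hlast : (N + 1) ^ 2 * w ^ (3 * p - 1) ≤ lam (Fin.last _)) :
    plethMult a b (n + 3) lam ≤ plethMult b a (n + 3) lam :=
  final_of (fun _ _ _ _ _ _ h => plethMult_mul h) (fun _ _ _ mu h1 h2 h3 h4 h5 => pos_of mu h1 h2 h3 h4 h5)
    (fun _ _ _ E h => rich E h) (fun _ _ _ _ => Eb_stable)
    (fun _ _ _ _ _ _ h1 h2 h3 => Eb_weight h1 h2 h3) (fun _ _ _ _ _ h1 h2 => hw_sum h1 h2)
    (fun _ _ _ _ _ hc => Eb_dim hc) plethMult_le_pow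
    (fun _ _ _ _ _ _ h1 h2 h3 h4 h5 h6 => numer h1 h2 h3 h4 h5 h6) hp hN h1 h2 lam hsum hl0 hl hlast

end Vale.Agent.P181.FR
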