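import Vale.Agent.P181.R2.H207.KMain

set_option autoImplicit false

open scoped TensorProduct

namespace Vale.Agent.P181.KT

open Finset Vale.Agent.P181 Vale.Agent.P181.H280 Vale.Agent.P181.FR

/-- `b ≥ 2 a` -/
lemma large_b (n : ℕ) {κ : ℝ} (hκ : 0 < κ) : ∃ A : ℕ, ∀ (a b : ℕ) (lam : Fin (n + 3) → ℕ),
    A ≤ a → 2 * a ≤ b → ∑ i, lam i = a * b →
    (∀ i : Fin (n + 2), (lam i.succ : ℝ) + κ * (a * b) ≤ lam i.castSucc) →
    κ * (a * b) ≤ lam (Fin.last _) → plethMult a b (n + 3) lam ≤ plethMult b a (n + 3) lam := by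
  obtain ⟨C, η, hC, hη0, hη1, hd⟩ := final_delta n (δ := 1) one_pos
  have ht1 : Filter.Tendsto (fun a : ℕ => κ * (a : ℝ)) Filter.atTop Filter.atTop :=
    Filter.Tendsto.const_mul_atTop hκ tendsto_natCast_atTop_atTop
  have ht2 : Filter.Tendsto (fun a : ℕ => κ * (a : ℝ) ^ η) Filter.atTop Filter.atTop :=
    Filter.Tendsto.const_mul_atTop hκ
      ((tendsto_rpow_atTop hη0).comp tendsto_natCast_atTop_atTop)
  obtain ⟨A, hA⟩ := Filter.eventually_atTop.1
    ((ht1.eventually_ge_atTop (2 * C)).and (ht2.eventually_ge_atTop (2 * C)))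
  refine ⟨max A 1, ?_⟩
  intro a b lam ha hab hsum hgap hlast
  obtain ⟨h1, h2⟩ := hA a (by omega)
  have ha0 : (0 : ℝ) < a := by exact_mod_cast (by omega : 0 < a)
  have habR : 2 * (a : ℝ) ≤ b := by exact_mod_cast hab
  have hb0 : (0 : ℝ) < b := by linarith
  have e1 : C * b ≤ κ * (a * b) / 2 := by
    have := mul_le_mul_of_nonneg_right h1 hb0.le
    linarith
  have e2 : C * (a : ℝ) ^ (2 - η) ≤ κ * (a * b) / 2 := by
    have h3 : (0 : ℝ) < (a : ℝ) ^ (2 - η) := Real.rpow_pos_of_pos ha0 _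
    have h4 := mul_le_mul_of_nonneg_right h2 h3.le
    have h5 : κ * (a : ℝ) ^ η * (a : ℝ) ^ (2 - η) = κ * (a * a) := by
      rw [mul_assoc, ← Real.rpow_add ha0, show η + (2 - η) = 2 by ring, Real.rpow_two, pow_two]
    rw [h5] at h4
    have h6 : κ * ((a : ℝ) * a) ≤ κ * (a * b) :=
      mul_le_mul_of_nonneg_left (mul_le_mul_of_nonneg_left (by linarith) ha0.le) hκ.le
    linarith
  have e3 : 0 ≤ C * (a : ℝ) ^ (2 - η) := by positivity
  apply hd a b lam (by linarith) hsum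
  · have := hgap 0
    have e4 : (Fin.succ (0 : Fin (n + 2))) = (1 : Fin (n + 3)) := rfl
    rw [e4, Fin.castSucc_zero] at this
    rw [mul_add]
    linarith
  · intro i
    have := hgap i.succ
    have h7 : (0 : ℝ) ≤ κ * (a * b) := by positivity
    linarith
  · have h7 : (0 : ℝ) ≤ κ * (a * b) := by positivity
    linarith

/-- `a + K ≤ b ≤ 2 a`, for one `c, M, G` -/
lemma mid_case {n a b c M G P : ℕ} {κ T : ℝ} (H3 : K3) (H6 : K6) (H12 : K12) (H13 : K13)
    (H14 : K14) (hκ : 0 < κ) (hT : 0 < T)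
    (h5 : ∀ (c : ℕ) (η x : Fin (n + 3) → ℝ), 1 ≤ c →
      Mean (n + 3) c η x → ∑ i, x i = c → (∀ i, κ / 2 * c ≤ x i) → ∀ i j, c * (η i - η j) ≤ T)
    (h11 : ∀ (c b : ℕ) (ν : Fin (n + 3) → ℕ)
      (η : Fin (n + 3) → ℝ), 1 ≤ c → 1 ≤ b → ∑ i, ν i = b * c →
      (∀ i j, i < j → (ν j : ℝ) + κ / 2 * (b * c) ≤ ν i) → (∀ i, κ / 2 * (b * c) ≤ ν i) →
      Mean (n + 3) c η (fun i => (ν i : ℝ) / b) →
      ZZ (n + 3) c η ^ b * Real.exp (-∑ i, η i * (ν i : ℝ)) ≤
        ((b : ℝ) * c + 1) ^ P * NN (n + 3) c b ν)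
    (hab : a ≤ b) (hb2 : b ≤ 2 * a) (hac : a = M + c) (hc : 1 ≤ c) (ha2 : a ≤ 2 * c)
    (hM : n + 3 ≤ M)
    (hbig : 2 * ((n + 3) * ((n + 2) * (2 * G + (n + 3) ^ 3 + 3) + 2 * G)) + b +
      4 * (n + 3) ^ 2 * M ≤ M * b)
    (hMκ : (M : ℝ) ≤ κ / 4 * a)
    (hG : (c : ℝ) * (((P + ((n + 3) * (n + 3) + (n + 3)) : ℕ) : ℝ) * Real.log ((b : ℝ) * c + 1) +
      64 * Real.exp T) < κ / 2 * (G + 1))
    (hnum : ((P + ((n + 3) * (n + 3) + (n + 3)) : ℕ) : ℝ) * Real.log ((b : ℝ) * c + 1) +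
      4 * T * M + 2 * (n + 2) * ((b : ℝ) - c) + 16 * Real.exp T ≤
        ((b : ℝ) - a) * (Real.log (Real.exp (-T) * c ^ 2 / 4) - Real.log b))
    (lam : Fin (n + 3) → ℕ) (hsum : ∑ i, lam i = a * b)
    (hgap : ∀ i : Fin (n + 2), (lam i.succ : ℝ) + κ * (a * b) ≤ lam i.castSucc)
    (hlast : κ * (a * b) ≤ lam (Fin.last _)) :
    plethMult a b (n + 3) lam ≤ plethMult b a (n + 3) lam := by
  have hc0 : (0 : ℝ) < c := by exact_mod_cast hc
  have ha0 : (0 : ℝ) < a := by exact_mod_cast (by omega : 0 < a)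
  have hb1 : 1 ≤ b := by omega
  have hb0 : (0 : ℝ) < b := by exact_mod_cast hb1
  have hca : (c : ℝ) ≤ a := by exact_mod_cast (by omega : c ≤ a)
  have hM1 : (1 : ℝ) ≤ M := by exact_mod_cast (by omega : 1 ≤ M)
  have hb1R : (1 : ℝ) ≤ b := by exact_mod_cast hb1
  -- the natural gap
  set F := ⌊κ * ((a : ℝ) * b)⌋₊ with hF
  have hF1 : (F : ℝ) ≤ κ * (a * b) := Nat.floor_le (by positivity)
  have hF2 : κ * ((a : ℝ) * b) < F + 1 := Nat.lt_floor_add_one _
  have hMb : ((M * b : ℕ) : ℝ) ≤ κ * (a * b) / 4 := by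
    push_cast
    have := mul_le_mul_of_nonneg_right hMκ hb0.le
    linarith
  have hone : (1 : ℝ) ≤ κ * (a * b) / 4 := by
    have h1 : (1 : ℝ) * 1 ≤ M * b := mul_le_mul hM1 hb1R zero_le_one (by linarith)
    push_cast at hMb
    linarith
  have hFM : M * b ≤ F := by
    have : ((M * b : ℕ) : ℝ) ≤ F := by linarith
    exact_mod_cast this
  set H := F - M * b with hH
  have hHF : H + M * b = F := Nat.sub_add_cancel hFM
  have hHR : κ / 2 * (b * c) ≤ (H : ℝ) := by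
    have h1 : (H : ℝ) + ((M * b : ℕ) : ℝ) = F := by exact_mod_cast hHF
    have h2 : κ / 2 * ((b : ℝ) * c) ≤ κ * (a * b) / 2 := by
      have : (b : ℝ) * c ≤ a * b := by
        rw [mul_comm (a : ℝ) b]
        exact mul_le_mul_of_nonneg_left hca hb0.le
      have := mul_le_mul_of_nonneg_left this (half_pos hκ).le
      linarith
    linarith
  obtain ⟨ν, hs, hle, hνgap, hνlast, hcomb⟩ := comb hac hM hbig lam hsum (H := H)
    (fun i => by
      rw [hHF]
      have : ((lam i.succ + F : ℕ) : ℝ) ≤ lam i.castSucc := by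
        push_cast
        linarith [hgap i]
      exact_mod_cast this)
    (by
      rw [hHF]
      have : ((F : ℕ) : ℝ) ≤ lam (Fin.last _) := by linarith
      exact_mod_cast this)
  -- gaps of `ν`
  have hgapR : ∀ i : Fin (n + 2), (ν i.succ : ℝ) + κ / 2 * (b * c) ≤ ν i.castSucc := by
    intro i
    have : ((ν i.succ + H : ℕ) : ℝ) ≤ ν i.castSucc := by exact_mod_cast hνgap i
    push_cast at this
    linarith
  have hanti : Antitone ν := Fin.antitone_iff_succ_le.2 fun i => by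
    have := hνgap i
    omega
  have hentry : ∀ i, κ / 2 * ((b : ℝ) * c) ≤ ν i := by
    intro i
    have h1 : ((ν (Fin.last _) : ℕ) : ℝ) ≤ ν i := by exact_mod_cast hanti (Fin.le_last i)
    have h2 : (H : ℝ) ≤ ν (Fin.last _) := by exact_mod_cast hνlast
    linarith
  have hpair : ∀ i j, i < j → (ν j : ℝ) + κ / 2 * (b * c) ≤ ν i := by
    intro i j hij
    have hi : i ≠ Fin.last (n + 2) := (lt_of_lt_of_le hij (Fin.le_last j)).ne
    have h1 := hgapR (i.castPred hi)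
    rw [Fin.castSucc_castPred] at h1
    have h2 : (i.castPred hi).succ ≤ j := by
      rw [Fin.le_def, Fin.val_succ]
      exact hij
    have h3 : ((ν j : ℕ) : ℝ) ≤ ν (i.castPred hi).succ := by exact_mod_cast hanti h2
    linarith
  -- the tilt
  set x : Fin (n + 3) → ℝ := fun i => (ν i : ℝ) / b with hx
  have hxs : ∑ i, x i = c := by
    rw [hx, ← sum_div]
    have e3 : ∑ i, (ν i : ℝ) = b * c := by exact_mod_cast congrArg (Nat.cast (R := ℝ)) hs
    rw [e3]
    field_simp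
  have hxe : ∀ i, κ / 2 * c ≤ x i := by
    intro i
    rw [hx]
    show κ / 2 * c ≤ (ν i : ℝ) / b
    rw [le_div_iff₀ hb0]
    linarith [hentry i]
  have hx0 : ∀ i, 0 < x i := fun i => lt_of_lt_of_le (by positivity) (hxe i)
  obtain ⟨η1, hη1⟩ := H3 x (by omega) hc hxs hx0
  set η : Fin (n + 3) → ℝ := fun i => η1 i - η1 0 with hη
  have hmean : Mean (n + 3) c η x := Mean_shift (η1 0) hη1
  have hη00 : η 0 = 0 := sub_self _
  have hgapη : ∀ i : Fin (n + 2), κ / 2 ≤ c * (η i.castSucc - η i.succ) := by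
    intro i
    apply H6 i.castSucc i.succ (half_pos hκ) hc hmean
    show (ν i.succ : ℝ) / b + κ / 2 * c ≤ (ν i.castSucc : ℝ) / b
    rw [le_div_iff₀ hb0, add_mul, div_mul_cancel₀ _ hb0.ne']
    linarith [hgapR i]
  have hηanti : Antitone η := Fin.antitone_iff_succ_le.2 fun i => by
    have h1 := hgapη i
    by_contra hlt
    rw [not_le] at hlt
    have : (c : ℝ) * (η i.castSucc - η i.succ) < 0 := mul_neg_of_pos_of_neg hc0 (by linarith)
    linarith
  have hηle : ∀ i, η i ≤ 0 := fun i => by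
    rw [← hη00]
    exact hηanti (Fin.zero_le i)
  have hηT : ∀ i, -T ≤ c * η i := fun i => by
    have := h5 c η x hc hmean hxs hxe 0 i
    rw [hη00] at this
    linarith
  set Z := ZZ (n + 3) c η with hZdef
  have hZ : Real.exp (-T) * (c : ℝ) ^ 2 / 4 ≤ Z := ZZ_lower hηT hc
  have hloc := h11 c b ν η hc hb1 hs hpair hentry hmean
  obtain ⟨lam', hs', hdom, hNN⟩ := H14 (b := b) (c := c) ν hs
  set Y := plethMult b c (n + 3) lam' with hY
  have hI : Z ^ b * Real.exp (-∑ i, η i * (ν i : ℝ)) ≤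
      ((b : ℝ) * c + 1) ^ (P + ((n + 3) * (n + 3) + (n + 3))) * (b.factorial * Y) := by
    refine hloc.trans ?_
    have h1 : ((NN (n + 3) c b ν : ℕ) : ℝ) ≤ (b.factorial : ℝ) *
        (((b : ℝ) * c + 1) ^ ((n + 3) * (n + 3) + (n + 3)) * Y) := by exact_mod_cast hNN
    have h2 := mul_le_mul_of_nonneg_left h1
      (show (0 : ℝ) ≤ ((b : ℝ) * c + 1) ^ P by positivity)
    refine h2.trans (le_of_eq ?_)
    rw [pow_add]
    ring
  have hII : Z ^ b * Real.exp (-∑ i, η i * (ν i : ℝ)) * Real.exp (∑ i, η i * (lam' i : ℝ)) ≤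
      ((b : ℝ) * c + 1) ^ (P + ((n + 3) * (n + 3) + (n + 3))) * (Z + b) ^ b := by
    have h1 := H13 (a := b) (b := c) lam' η hηle
    calc Z ^ b * Real.exp (-∑ i, η i * (ν i : ℝ)) * Real.exp (∑ i, η i * (lam' i : ℝ))
        ≤ ((b : ℝ) * c + 1) ^ (P + ((n + 3) * (n + 3) + (n + 3))) * (b.factorial * Y) *
          Real.exp (∑ i, η i * (lam' i : ℝ)) :=
          mul_le_mul_of_nonneg_right hI (Real.exp_pos _).le
      _ = ((b : ℝ) * c + 1) ^ (P + ((n + 3) * (n + 3) + (n + 3))) * (b.factorial * Y *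
          Real.exp (∑ i, η i * (lam' i : ℝ))) := by ring
      _ ≤ _ := mul_le_mul_of_nonneg_left h1 (by positivity)
  have hnear := near hc hb1 (by omega) hκ hZ hgapη hs hs' hdom hII hG
  have hfinal := hcomb lam' hs' hdom hnear
  refine le_trans ?_ hfinal
  -- the comparison
  have hX := H13 (a := a) (b := b) lam (fun i => c * η i / b) (fun i => by
    have := hηle i
    exact div_nonpos_of_nonpos_of_nonneg (mul_nonpos_of_nonneg_of_nonpos hc0.le this) hb0.le)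
  have hW := H12 (m := n + 3) (c := c) (b := b) (fun i => c * η i) (by omega) hc (by omega)
  have e1 : (fun i => (c : ℝ) * η i / c) = η := by
    funext i
    field_simp
  rw [e1] at hW
  exact compare hac hc hab (by omega) ha2 hT hZ hηle hηT hsum hs hle hI hW
    (sum_nonneg fun _ _ => (Real.exp_pos _).le) hX hnum

/-- **Theorem K** from its rows. -/
theorem k15_of (H3 : K3) (H5 : K5) (H6 : K6) (H11 : K11) (H12 : K12) (H13 : K13) (H14 : K14)
    (H17 : K17) : K15 := by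
  intro n κ hκ
  obtain ⟨T, hT, h5⟩ := H5 (n + 3) (κ := κ / 2) (half_pos hκ)
  obtain ⟨P, h11⟩ := H11 (n + 3) (κ := κ / 2) (half_pos hκ)
  obtain ⟨K, A1, h17⟩ := H17 n (P + ((n + 3) * (n + 3) + (n + 3))) hκ hT
  obtain ⟨A2, h2⟩ := large_b n hκ
  refine ⟨K, max A1 A2, ?_⟩
  intro a b lam hA hab hsum hgap hlast
  by_cases hb : b ≤ 2 * a
  · obtain ⟨c, M, G, g1, g2, g3, g4, g5, g6, g7, g8⟩ := h17 a b (by omega) hab hb
    exact mid_case H3 H6 H12 H13 H14 hκ hT h5 h11 (by omega) hb g1 g2 g3 g4 g5 g6 g7 g8 lam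
      hsum hgap hlast
  · exact h2 a b lam (by omega) (by omega) hsum hgap hlast

end Vale.Agent.P181.KT
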