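import Vale.Agent.P181.R2.H207.Delta3

set_option autoImplicit false

open scoped TensorProduct

namespace Vale.Agent.P181.KT

open Finset Vale.Agent.P181 Vale.Agent.P181.H280 Vale.Agent.P181.FR

/-- partial sums -/
def ps {n : ℕ} (f : Fin (n + 1) → ℕ) (k : Fin (n + 1)) : ℕ := ∑ i ∈ univ.filter (· ≤ k), f i

lemma ps_zero {n : ℕ} (f : Fin (n + 1) → ℕ) : ps f 0 = f 0 := by
  have : (univ.filter (· ≤ (0 : Fin (n + 1)))) = {0} := by
    ext i
    simp
  rw [ps, this, sum_singleton]

lemma ps_succ {n : ℕ} (f : Fin (n + 1) → ℕ) (i : Fin n) :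
    ps f i.succ = ps f i.castSucc + f i.succ := by
  have : (univ.filter (· ≤ i.succ)) = insert i.succ (univ.filter (· ≤ i.castSucc)) := by
    ext j
    simp only [mem_filter, mem_univ, true_and, mem_insert, Fin.le_def, Fin.ext_iff,
      Fin.val_succ, Fin.val_castSucc]
    omega
  rw [ps, ps, this, sum_insert, add_comm]
  simp only [mem_filter, mem_univ, true_and, Fin.le_def, Fin.val_succ, Fin.val_castSucc]
  omega

lemma ps_close {n G : ℕ} {f g : Fin (n + 1) → ℕ} (h1 : ∀ k, ps f k ≤ ps g k)
    (h2 : ∀ k, ps g k ≤ ps f k + G) (i : Fin (n + 1)) : g i ≤ f i + G ∧ f i ≤ g i + G := by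
  induction i using Fin.cases with
  | zero =>
    have e1 := h1 0
    have e2 := h2 0
    rw [ps_zero, ps_zero] at e1 e2
    omega
  | succ j =>
    have e1 := h1 j.succ
    have e2 := h2 j.succ
    have e3 := h1 j.castSucc
    have e4 := h2 j.castSucc
    rw [ps_succ, ps_succ] at e1 e2
    omega

/-- the shape that is split off -/
def mz (n N G g : ℕ) : Fin (n + 3) → ℕ :=
  Fin.cons (N - ∑ i : Fin (n + 2), ((n + 1 - i) * g + G)) (fun i : Fin (n + 2) => (n + 1 - i) * g + G)

lemma mz_sum_le {n G g : ℕ} : ∑ i : Fin (n + 2), ((n + 1 - (i : ℕ)) * g + G) ≤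
    (n + 2) * ((n + 1) * g + G) := by
  calc ∑ i : Fin (n + 2), ((n + 1 - (i : ℕ)) * g + G)
      ≤ ∑ _i : Fin (n + 2), ((n + 1) * g + G) := by
        apply sum_le_sum
        intro i _
        exact Nat.add_le_add_right (Nat.mul_le_mul_right _ (Nat.sub_le _ _)) _
    _ = (n + 2) * ((n + 1) * g + G) := by
        rw [sum_const, card_univ, Fintype.card_fin, smul_eq_mul]

lemma mz_sum {n N G g : ℕ} (h : (n + 2) * ((n + 1) * g + G) ≤ N) : ∑ i, mz n N G g i = N := by
  have h1 := (mz_sum_le (n := n) (G := G) (g := g)).trans h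
  rw [Fin.sum_univ_succ]
  simp only [mz, Fin.cons_zero, Fin.cons_succ]
  exact Nat.sub_add_cancel h1

lemma mz_succ {n N G g : ℕ} (i : Fin (n + 2)) : mz n N G g i.succ = (n + 1 - i) * g + G := rfl

lemma mz_zero {n N G g : ℕ} : mz n N G g 0 = N - ∑ i : Fin (n + 2), ((n + 1 - (i : ℕ)) * g + G) :=
  rfl

/-- The combinatorial part of theorem K. -/
theorem comb {n a b c M G H : ℕ} (hac : a = M + c) (hM : n + 3 ≤ M)
    (hbig : 2 * ((n + 3) * ((n + 2) * (2 * G + (n + 3) ^ 3 + 3) + 2 * G)) + b +
      4 * (n + 3) ^ 2 * M ≤ M * b)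
    (lam : Fin (n + 3) → ℕ) (hsum : ∑ i, lam i = a * b)
    (hgap : ∀ i : Fin (n + 2), lam i.succ + (H + M * b) ≤ lam i.castSucc)
    (hlast : H + M * b ≤ lam (Fin.last _)) :
    ∃ ν : Fin (n + 3) → ℕ, ∑ i, ν i = b * c ∧ (∀ i, ν i ≤ lam i) ∧
      (∀ i : Fin (n + 2), ν i.succ + H ≤ ν i.castSucc) ∧ H ≤ ν (Fin.last _) ∧
      ∀ lam' : Fin (n + 3) → ℕ, ∑ i, lam' i = b * c → (∀ k, ps ν k ≤ ps lam' k) →
        (∀ k, ps lam' k ≤ ps ν k + G) →
        plethMult b c (n + 3) lam' ≤ plethMult b a (n + 3) lam := by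
  set g := 2 * G + (n + 3) ^ 3 + 3 with hg
  have hN : (n + 2) * ((n + 1) * g + G) ≤ M * b := by
    refine le_trans ?_ hbig
    nlinarith [Nat.zero_le (n * g), Nat.zero_le G, Nat.zero_le (n * G), Nat.zero_le g,
      Nat.zero_le (n * n * g), Nat.zero_le (4 * (n + 3) ^ 2 * M)]
  have hms := mz_sum hN
  have hsl := (mz_sum_le (n := n) (G := G) (g := g))
  have hmle : ∀ i, mz n (M * b) G g i ≤ M * b := by
    intro i
    calc mz n (M * b) G g i ≤ ∑ j, mz n (M * b) G g j :=
          single_le_sum (f := mz n (M * b) G g) (fun _ _ => Nat.zero_le _) (mem_univ i)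
      _ = M * b := hms
  have hanti : Antitone lam := Fin.antitone_iff_succ_le.2 fun i => by
    have := hgap i
    omega
  have hmlam : ∀ i, mz n (M * b) G g i ≤ lam i := fun i => by
    have h1 := hmle i
    have h2 := hanti (Fin.le_last i)
    omega
  refine ⟨fun i => lam i - mz n (M * b) G g i, ?_, fun i => Nat.sub_le _ _, ?_, ?_, ?_⟩
  · have h1 : ∑ i, (lam i - mz n (M * b) G g i) + ∑ i, mz n (M * b) G g i = ∑ i, lam i := by
      rw [← sum_add_distrib]
      exact sum_congr rfl fun i _ => Nat.sub_add_cancel (hmlam i)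
    rw [hms, hsum, hac] at h1
    have h2 : (M + c) * b = b * c + M * b := by ring
    show ∑ i, (lam i - mz n (M * b) G g i) = b * c
    omega
  · intro i
    have h1 := hgap i
    have h2 := hmle i.castSucc
    have h3 := Nat.sub_le (lam i.succ) (mz n (M * b) G g i.succ)
    show lam i.succ - mz n (M * b) G g i.succ + H ≤ lam i.castSucc - mz n (M * b) G g i.castSucc
    omega
  · have h2 := hmle (Fin.last _)
    show H ≤ lam (Fin.last _) - mz n (M * b) G g (Fin.last _)
    omega
  · intro lam' hs' h1 h2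
    have hcl := fun i => ps_close h1 h2 i
    have hmz1 : ∀ i : Fin (n + 2), G ≤ mz n (M * b) G g i.succ := fun i => by
      rw [mz_succ]; exact Nat.le_add_left _ _
    have hmz0 : mz n (M * b) G g 1 + 2 * G + b + 4 * (n + 3) ^ 2 * M ≤ mz n (M * b) G g 0 := by
      have e1 : mz n (M * b) G g 1 = (n + 1) * g + G := by
        have : (1 : Fin (n + 3)) = (0 : Fin (n + 2)).succ := rfl
        rw [this, mz_succ]
        simp
      rw [e1, mz_zero]
      have e2 : (n + 1) * g + G + 2 * G + b + 4 * (n + 3) ^ 2 * M +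
          (n + 2) * ((n + 1) * g + G) ≤ M * b := by
        refine le_trans ?_ hbig
        nlinarith [Nat.zero_le (n * g), Nat.zero_le G, Nat.zero_le (n * G), Nat.zero_le g,
          Nat.zero_le (n * n * g)]
      omega
    have hG0 : G ≤ mz n (M * b) G g 0 := by omega
    have hmzG : ∀ i, G ≤ mz n (M * b) G g i := by
      intro i
      induction i using Fin.cases with
      | zero => exact hG0
      | succ j => exact hmz1 j
    have hle : ∀ i, lam' i ≤ lam i := by
      intro i
      have e1 := (hcl i).1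
      have e2 := hmzG i
      have e3 := hmlam i
      omega
    set mu : Fin (n + 3) → ℕ := fun i => lam i - lam' i with hmu
    have hmu1 : ∀ i, mu i + lam' i = lam i := fun i => Nat.sub_add_cancel (hle i)
    have hb1 : ∀ i, mu i ≤ mz n (M * b) G g i + G := by
      intro i
      have e1 := (hcl i).2
      have e3 := hmlam i
      have e4 := hmu1 i
      omega
    have hb2 : ∀ i, mz n (M * b) G g i ≤ mu i + G := by
      intro i
      have e1 := (hcl i).1
      have e3 := hmlam i
      have e4 := hmu1 i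
      omega
    have hstep : ∀ (k : ℕ) (hk : k + 2 < n + 3), mz n (M * b) G g ⟨k + 2, hk⟩ + g =
        mz n (M * b) G g ⟨k + 1, by omega⟩ := by
      intro k hk
      have e1 : (⟨k + 2, hk⟩ : Fin (n + 3)) = (⟨k + 1, by omega⟩ : Fin (n + 2)).succ := rfl
      have e2 : (⟨k + 1, by omega⟩ : Fin (n + 3)) = (⟨k, by omega⟩ : Fin (n + 2)).succ := rfl
      rw [e1, e2, mz_succ, mz_succ]
      have e3 : n + 1 - k = (n + 1 - (k + 1)) + 1 := by omega
      show (n + 1 - (k + 1)) * g + G + g = (n + 1 - k) * g + G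
      rw [e3]
      ring
    have hpos : Pos b M (n + 3) mu := by
      apply pos_of mu
      · have h3 : ∑ i, mu i + ∑ i, lam' i = ∑ i, lam i := by
          rw [← sum_add_distrib]
          exact sum_congr rfl fun i _ => hmu1 i
        rw [hs', hsum, hac] at h3
        have h2 : (M + c) * b = b * c + M * b := by ring
        omega
      · exact hM
      · have e1 := hb1 1
        have e2 := hb2 0
        omega
      · have e1 := hb1 2
        have e2 := hb2 1
        have e3 := hstep 0 (by omega)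
        have e4 : (⟨0 + 2, by omega⟩ : Fin (n + 3)) = 2 := by
          apply Fin.ext
          show 0 + 2 = ((2 : Fin (n + 3)) : ℕ)
          rw [show ((2 : Fin (n + 3)) : ℕ) = 2 from Nat.mod_eq_of_lt (show 2 < n + 3 by omega)]
        have e5 : (⟨0 + 1, by omega⟩ : Fin (n + 3)) = 1 := by
          apply Fin.ext
          show 0 + 1 = ((1 : Fin (n + 3)) : ℕ)
          rw [show ((1 : Fin (n + 3)) : ℕ) = 1 from Nat.mod_eq_of_lt (show 1 < n + 3 by omega)]
        rw [e4, e5] at e3
        omega
      · apply anti_of_step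
        intro k hk
        have e1 := hb1 ⟨k + 2, hk⟩
        have e2 := hb2 ⟨k + 1, by omega⟩
        have e3 := hstep k hk
        omega
    have hfin := plethMult_pt (c := c) (lam := lam') hpos
    have e1 : mu + lam' = lam := funext hmu1
    rw [e1, ← hac] at hfin
    exact hfin

end Vale.Agent.P181.KT
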