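import Vale.Agent.P181.R2.H207.KSpec
import Vale.Agent.P181.R2.H207.KComb

set_option autoImplicit false

open scoped TensorProduct

namespace Vale.Agent.P181.KT

open Finset Vale.Agent.P181 Vale.Agent.P181.H280 Vale.Agent.P181.FR

/-- K17 (numbers). -/
def K17 : Prop := ∀ (n p : ℕ) {κ T : ℝ}, 0 < κ → 0 < T → ∃ K A : ℕ, ∀ a b : ℕ,
    A ≤ a → a + K ≤ b → b ≤ 2 * a → ∃ c M G : ℕ, a = M + c ∧ 1 ≤ c ∧ a ≤ 2 * c ∧ n + 3 ≤ M ∧
      2 * ((n + 3) * ((n + 2) * (2 * G + (n + 3) ^ 3 + 3) + 2 * G)) + b +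
        4 * (n + 3) ^ 2 * M ≤ M * b ∧
      (M : ℝ) ≤ κ / 4 * a ∧
      (c : ℝ) * (p * Real.log ((b : ℝ) * c + 1) + 64 * Real.exp T) < κ / 2 * (G + 1) ∧
      (p : ℝ) * Real.log ((b : ℝ) * c + 1) + 4 * T * M + 2 * (n + 2) * ((b : ℝ) - c) +
        16 * Real.exp T ≤
        ((b : ℝ) - a) * (Real.log (Real.exp (-T) * c ^ 2 / 4) - Real.log b)

/-! ### tilts -/

lemma mem_Mn_sum {m c : ℕ} {u : Fin m → ℕ} (hu : u ∈ Mn m c) : ∑ i, u i = c :=
  (mem_piAntidiag.1 hu).1

lemma dot_shift {m c : ℕ} {u : Fin m → ℕ} (hu : u ∈ Mn m c) (η : Fin m → ℝ) (t : ℝ) :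
    ∑ i, (η i - t) * (u i : ℝ) = ∑ i, η i * (u i : ℝ) - t * c := by
  have h : ((∑ i, u i : ℕ) : ℝ) = c := by rw [mem_Mn_sum hu]
  push_cast at h
  simp only [sub_mul, sum_sub_distrib, ← mul_sum]
  rw [h]

lemma ZZ_shift {m c : ℕ} (η : Fin m → ℝ) (t : ℝ) :
    ZZ m c (fun i => η i - t) = Real.exp (-(t * c)) * ZZ m c η := by
  rw [ZZ, ZZ, mul_sum]
  refine sum_congr rfl fun u hu => ?_
  rw [dot_shift hu, ← Real.exp_add]
  congr 1
  ring

lemma Mean_shift {m c : ℕ} {η x : Fin m → ℝ} (t : ℝ) (h : Mean m c η x) :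
    Mean m c (fun i => η i - t) x := by
  intro i
  rw [ZZ_shift, mul_left_comm, ← h i, mul_sum]
  refine sum_congr rfl fun u hu => ?_
  rw [dot_shift hu, mul_left_comm, ← Real.exp_add]
  congr 2
  ring

lemma card_Mn {n c : ℕ} : (c / 2 + 1) ^ 2 ≤ (Mn (n + 3) c).card := by
  classical
  have h : ((range (c / 2 + 1)) ×ˢ (range (c / 2 + 1))).card ≤ (Mn (n + 3) c).card := by
    apply card_le_card_of_injOn (fun p : ℕ × ℕ =>
      (Fin.cons (c - p.1 - p.2) (Fin.cons p.1 (Fin.cons p.2 (fun _ => 0))) : Fin (n + 3) → ℕ))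
    · intro p hp
      have hp' := mem_product.1 (mem_coe.1 hp)
      rw [mem_range, mem_range] at hp'
      show _ ∈ Mn (n + 3) c
      rw [Mn, mem_piAntidiag]
      refine ⟨?_, fun _ _ => mem_univ _⟩
      rw [Fin.sum_univ_succ, Fin.sum_univ_succ, Fin.sum_univ_succ]
      simp only [Fin.cons_zero, Fin.cons_succ, sum_const_zero]
      omega
    · intro p _ q _ hpq
      have h1 := congrFun hpq (Fin.succ 0)
      have h2 := congrFun hpq (Fin.succ (Fin.succ 0))
      simp only [Fin.cons_zero, Fin.cons_succ] at h1 h2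
      exact Prod.ext h1 h2
  rw [card_product, card_range] at h
  rw [pow_two]
  exact h

lemma ZZ_lower {n c : ℕ} {η : Fin (n + 3) → ℝ} {T : ℝ} (hη : ∀ i, -T ≤ c * η i) (hc : 1 ≤ c) :
    Real.exp (-T) * (c : ℝ) ^ 2 / 4 ≤ ZZ (n + 3) c η := by
  have hc0 : (0 : ℝ) < c := by exact_mod_cast hc
  have h1 : ∀ u ∈ Mn (n + 3) c, Real.exp (-T) ≤ Real.exp (∑ i, η i * (u i : ℝ)) := by
    intro u hu
    apply Real.exp_le_exp.2
    have h2 : ((∑ i, u i : ℕ) : ℝ) = c := by rw [mem_Mn_sum hu]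
    push_cast at h2
    have h3 : ∀ i, -T / c * (u i : ℝ) ≤ η i * u i := fun i =>
      mul_le_mul_of_nonneg_right (by rw [div_le_iff₀ hc0]; linarith [hη i]) (Nat.cast_nonneg _)
    calc -T = ∑ i, -T / c * (u i : ℝ) := by rw [← mul_sum, h2]; field_simp
      _ ≤ _ := sum_le_sum fun i _ => h3 i
  have h2 : ((Mn (n + 3) c).card : ℝ) * Real.exp (-T) ≤ ZZ (n + 3) c η := by
    rw [ZZ, ← nsmul_eq_mul]
    exact card_nsmul_le_sum _ _ _ h1
  have h3 : ((c / 2 + 1 : ℕ) : ℝ) ^ 2 ≤ ((Mn (n + 3) c).card : ℝ) := by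
    exact_mod_cast card_Mn
  have h4 : (c : ℝ) / 2 ≤ ((c / 2 + 1 : ℕ) : ℝ) := by
    have : c ≤ 2 * (c / 2 + 1) := by omega
    have : (c : ℝ) ≤ 2 * ((c / 2 + 1 : ℕ) : ℝ) := by exact_mod_cast this
    linarith
  have h5 : ((c : ℝ) / 2) ^ 2 ≤ ((c / 2 + 1 : ℕ) : ℝ) ^ 2 := pow_le_pow_left₀ (by positivity) h4 2
  have h6 : (0 : ℝ) < Real.exp (-T) := Real.exp_pos _
  nlinarith

/-- partial sums -/
noncomputable def rs {n : ℕ} (d : Fin (n + 1) → ℝ) (k : Fin (n + 1)) : ℝ :=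
  ∑ i ∈ univ.filter (· ≤ k), d i

lemma rs_cast {n : ℕ} (d : Fin (n + 2) → ℝ) (k : Fin (n + 1)) :
    rs (fun i : Fin (n + 1) => d i.castSucc) k = rs d k.castSucc := by
  rw [rs, rs, sum_filter, sum_filter,
    Fin.sum_univ_castSucc (fun i : Fin (n + 2) => if i ≤ k.castSucc then d i else 0)]
  have h : ¬ (Fin.last (n + 1) ≤ k.castSucc) := not_le.2 (Fin.castSucc_lt_last k)
  rw [if_neg h, add_zero]
  rfl

lemma rs_last {n : ℕ} (d : Fin (n + 1) → ℝ) : rs d (Fin.last n) = ∑ i, d i := by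
  rw [rs]
  congr 1
  ext i
  simp [Fin.le_last]

lemma abel : ∀ (n : ℕ) (η d : Fin (n + 1) → ℝ), ∑ i, η i * d i =
    ∑ i : Fin n, (η i.castSucc - η i.succ) * rs d i.castSucc + η (Fin.last n) * ∑ i, d i := by
  intro n
  induction n with
  | zero => intro η d; simp
  | succ n ih =>
    intro η d
    rw [Fin.sum_univ_castSucc, ih (fun i => η i.castSucc) (fun i => d i.castSucc)]
    rw [Fin.sum_univ_castSucc (fun i : Fin (n + 1) =>
      (η i.castSucc - η i.succ) * rs d i.castSucc), Fin.sum_univ_castSucc d]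
    simp only [rs_cast, Fin.succ_last]
    have e1 : rs d (Fin.last n).castSucc = ∑ i : Fin (n + 1), d i.castSucc := by
      rw [← rs_cast, rs_last]
    have e2 : ∑ x : Fin n, (η x.castSucc.castSucc - η x.succ.castSucc) * rs d x.castSucc.castSucc =
        ∑ i : Fin n, (η i.castSucc.castSucc - η i.castSucc.succ) * rs d i.castSucc.castSucc := rfl
    rw [e1, e2]
    ring

lemma fac_le {a b : ℕ} (h : a ≤ b) : b.factorial ≤ a.factorial * b ^ (b - a) := by
  induction b, h using Nat.le_induction with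
  | base => simp
  | succ b hb ih =>
    have e : b + 1 - a = (b - a) + 1 := by omega
    rw [Nat.factorial_succ, e, pow_succ]
    calc (b + 1) * b.factorial ≤ (b + 1) * (a.factorial * b ^ (b - a)) :=
          Nat.mul_le_mul_left _ ih
      _ ≤ (b + 1) * (a.factorial * (b + 1) ^ (b - a)) :=
          Nat.mul_le_mul_left _ (Nat.mul_le_mul_left _ (Nat.pow_le_pow_left (by omega) _))
      _ = a.factorial * ((b + 1) ^ (b - a) * (b + 1)) := by ring

/-- the distance of the rich weight -/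
lemma near {n b c p G : ℕ} {κ T Z : ℝ} {η : Fin (n + 3) → ℝ} {ν lam' : Fin (n + 3) → ℕ}
    (hc : 1 ≤ c) (hb : 1 ≤ b) (hbc : b ≤ 4 * c) (hκ : 0 < κ)
    (hZ : Real.exp (-T) * (c : ℝ) ^ 2 / 4 ≤ Z)
    (hgap : ∀ i : Fin (n + 2), κ / 2 ≤ c * (η i.castSucc - η i.succ))
    (hs : ∑ i, ν i = b * c) (hs' : ∑ i, lam' i = b * c) (hdom : ∀ k, ps ν k ≤ ps lam' k)
    (hII : Z ^ b * Real.exp (-∑ i, η i * (ν i : ℝ)) * Real.exp (∑ i, η i * (lam' i : ℝ)) ≤
      ((b : ℝ) * c + 1) ^ p * (Z + b) ^ b)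
    (hG : (c : ℝ) * (p * Real.log ((b : ℝ) * c + 1) + 64 * Real.exp T) < κ / 2 * (G + 1))
    (k : Fin (n + 3)) : ps lam' k ≤ ps ν k + G := by
  have hc0 : (0 : ℝ) < c := by exact_mod_cast hc
  have hb0 : (0 : ℝ) < b := by exact_mod_cast hb
  have hE : (0 : ℝ) < Real.exp (-T) := Real.exp_pos _
  have hZ0 : 0 < Z := lt_of_lt_of_le (by positivity) hZ
  by_contra hcon
  rw [not_le] at hcon
  -- difference vector
  set d : Fin (n + 3) → ℝ := fun i => (lam' i : ℝ) - ν i with hd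
  have hrs : ∀ k, rs d k = (ps lam' k : ℝ) - ps ν k := by
    intro k
    rw [rs, ps, ps]
    push_cast
    rw [← sum_sub_distrib]
  have hrs0 : ∀ k, 0 ≤ rs d k := by
    intro k
    rw [hrs]
    have : ((ps ν k : ℕ) : ℝ) ≤ ps lam' k := by exact_mod_cast hdom k
    linarith
  have hsum0 : ∑ i, d i = 0 := by
    rw [← rs_last, hrs]
    have e1 : ps lam' (Fin.last (n + 2)) = ∑ i, lam' i := by
      rw [ps]; congr 1; ext i; simp [Fin.le_last]
    have e2 : ps ν (Fin.last (n + 2)) = ∑ i, ν i := by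
      rw [ps]; congr 1; ext i; simp [Fin.le_last]
    rw [e1, e2, hs, hs', sub_self]
  have hk : k ≠ Fin.last (n + 2) := by
    rintro rfl
    have h1 := hrs (Fin.last (n + 2))
    rw [rs_last, hsum0] at h1
    have h2 : ((ps ν (Fin.last (n + 2)) : ℕ) : ℝ) + G < ps lam' (Fin.last (n + 2)) := by
      exact_mod_cast hcon
    have h3 : (0 : ℝ) ≤ G := Nat.cast_nonneg _
    linarith
  obtain ⟨j, rfl⟩ : ∃ j : Fin (n + 2), j.castSucc = k := ⟨k.castPred hk, Fin.castSucc_castPred k hk⟩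
  have habel := abel (n + 2) η d
  rw [hsum0, mul_zero, add_zero] at habel
  have hj : κ / 2 / c * (G + 1) ≤ ∑ i, η i * d i := by
    rw [habel]
    have h1 : ∀ i : Fin (n + 2), 0 ≤ (η i.castSucc - η i.succ) * rs d i.castSucc := fun i => by
      apply mul_nonneg _ (hrs0 _)
      have := hgap i
      by_contra hlt
      rw [not_le] at hlt
      have := mul_neg_of_pos_of_neg hc0 hlt
      linarith
    refine le_trans ?_ (single_le_sum (fun i _ => h1 i) (mem_univ j))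
    have h2 : ((G : ℝ) + 1) ≤ rs d j.castSucc := by
      rw [hrs]
      have : ((ps ν j.castSucc + G + 1 : ℕ) : ℝ) ≤ ps lam' j.castSucc := by exact_mod_cast hcon
      push_cast at this
      linarith
    have h3 : κ / 2 / c ≤ η j.castSucc - η j.succ := by
      rw [div_le_iff₀ hc0]
      linarith [hgap j]
    exact mul_le_mul h3 h2 (by positivity) (by linarith [div_pos (half_pos hκ) hc0])
  have hdd : ∑ i, η i * d i = ∑ i, η i * (lam' i : ℝ) - ∑ i, η i * (ν i : ℝ) := by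
    rw [← sum_sub_distrib]
    refine sum_congr rfl fun i _ => ?_
    rw [hd]; ring
  have hlog := Real.log_le_log (by positivity) hII
  rw [Real.log_mul (by positivity) (by positivity), Real.log_mul (by positivity) (by positivity),
    Real.log_exp, Real.log_exp, Real.log_pow, Real.log_mul (by positivity) (by positivity),
    Real.log_pow, Real.log_pow] at hlog
  have hlZ : Real.log (Z + b) ≤ Real.log Z + b / Z := by
    have h1 : Z + b = Z * (1 + b / Z) := by field_simp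
    rw [h1, Real.log_mul (by positivity) (by positivity)]
    have := Real.log_le_sub_one_of_pos (show 0 < 1 + b / Z by positivity)
    linarith
  have hbZ : (b : ℝ) * (b / Z) ≤ 64 * Real.exp T := by
    rw [← mul_div_assoc, div_le_iff₀ hZ0]
    have h1 : (b : ℝ) ≤ 4 * c := by exact_mod_cast hbc
    have h2 : (b : ℝ) * b ≤ (4 * c) * (4 * c) := mul_le_mul h1 h1 hb0.le (by positivity)
    have h3 : 64 * Real.exp T * (Real.exp (-T) * (c : ℝ) ^ 2 / 4) = (4 * c) * (4 * c) := by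
      rw [Real.exp_neg]
      field_simp
      ring
    calc (b : ℝ) * b ≤ (4 * c) * (4 * c) := h2
      _ = 64 * Real.exp T * (Real.exp (-T) * (c : ℝ) ^ 2 / 4) := h3.symm
      _ ≤ 64 * Real.exp T * Z := mul_le_mul_of_nonneg_left hZ (by positivity)
  have hb1 : (b : ℝ) * Real.log (Z + b) ≤ b * Real.log Z + b * (b / Z) := by
    have := mul_le_mul_of_nonneg_left hlZ hb0.le
    linarith
  have hfin : κ / 2 / c * (G + 1) ≤ p * Real.log ((b : ℝ) * c + 1) + 64 * Real.exp T := by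
    linarith
  have h9 : κ / 2 * (G + 1) ≤ c * (p * Real.log ((b : ℝ) * c + 1) + 64 * Real.exp T) := by
    have := mul_le_mul_of_nonneg_left hfin hc0.le
    have e : (c : ℝ) * (κ / 2 / c * (G + 1)) = κ / 2 * (G + 1) := by field_simp
    linarith
  linarith

end Vale.Agent.P181.KT
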