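import Mathlib

set_option autoImplicit false

namespace Vale.Agent.P181.KT

open Finset

/-- The monomials of degree `c` in `m` variables (exponent vectors). -/
def Mn (m c : ℕ) : Finset (Fin m → ℕ) := Finset.piAntidiag Finset.univ c

/-- `∑_{|u| = c} exp (η · u)` -/
noncomputable def ZZ (m c : ℕ) (η : Fin m → ℝ) : ℝ :=
  ∑ u ∈ Mn m c, Real.exp (∑ i, η i * (u i : ℝ))

/-- The number of `b`-tuples of monomials of degree `c` whose exponents add up to `ν`. -/
noncomputable def NN (m c b : ℕ) (ν : Fin m → ℕ) : ℕ :=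
  ((Fintype.piFinset (fun _ : Fin b => Mn m c)).filter (fun f => ∑ j, f j = ν)).card

/-- `x` is the mean of the tilted distribution with parameter `η`. -/
def Mean (m c : ℕ) (η x : Fin m → ℝ) : Prop :=
  ∀ i, ∑ u ∈ Mn m c, (u i : ℝ) * Real.exp (∑ k, η k * (u k : ℝ)) = x i * ZZ m c η

end Vale.Agent.P181.KT
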