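import Vale.Agent.P181.R2.H207.K15
import Vale.Agent.P181.R2.H764.K1
import Vale.Agent.P181.R2.H764.NumK
import Vale.Agent.P181.R2.H425.K2
import Vale.Agent.P181.R2.H415.K3
import Vale.Agent.P181.R2.H415.K7
import Vale.Agent.P181.R2.H697.K4
import Vale.Agent.P181.R2.H379.K5
import Vale.Agent.P181.R2.H379.K13a
import Vale.Agent.P181.R2.H302.K8
import Vale.Agent.P181.R2.H350.K9
import Vale.Agent.P181.R2.H287.K10
import Vale.Agent.P181.R2.H853.K11
import Vale.Agent.P181.R2.H130.K12
import Vale.Agent.P181.R2.H539.K13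
import Vale.Agent.P181.R2.H822.K14
import Vale.Agent.P181.R2.H849.K16

set_option autoImplicit false

open scoped TensorProduct

namespace Vale.Agent.P181.KT

open Finset Vale.Agent.P181 Vale.Agent.P181.H280 Vale.Agent.P181.FR

theorem kk11 : K11 := k11_of @k1 @k2 @k3 @k4 @k5 (k9 @k7 @k8) k10

theorem kk15 : K15 :=
  k15_of @k3 @k5 @k6 kk11 @k12 (k13_of @k13a) @k14 (fun n p _ _ hκ hT => numK n p hκ hT)

/-- **Theorem K.** For every `m = n + 3` and `κ > 0` there is a constant `K` such that Foulkes'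
inequality holds for all `b ≥ a + K` and all partitions of `a b` with `m` rows all of whose gaps
(the last row included) are at least `κ a b`. -/
theorem final_K (n : ℕ) {κ : ℝ} (hκ : 0 < κ) : ∃ K : ℕ, ∀ (a b : ℕ) (lam : Fin (n + 3) → ℕ),
    a + K ≤ b → ∑ i, lam i = a * b →
    (∀ i : Fin (n + 2), (lam i.succ : ℝ) + κ * (a * b) ≤ lam i.castSucc) →
    κ * (a * b) ≤ lam (Fin.last _) →
    plethMult a b (n + 3) lam ≤ plethMult b a (n + 3) lam :=
  k15_all kk15 n hκ

/-- **Almost all partitions with at most `n + 3` rows, all `b ≥ a + K`.** -/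
theorem almost_all_K (n : ℕ) {ε : ℝ} (hε : 0 < ε) :
    ∃ K : ℕ, ∀ a b : ℕ, 1 ≤ a → a + K ≤ b →
      ({lam ∈ (Parts (n + 3) (a * b) : Set (Fin (n + 3) → Fin (a * b + 1))) |
        ¬ plethMult a b (n + 3) (fun i => lam i) ≤
          plethMult b a (n + 3) (fun i => lam i)}.ncard : ℝ) ≤
        ε * (Parts (n + 3) (a * b)).card :=
  k16_of kk15 n hε

end Vale.Agent.P181.KT
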