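import Vale.Agent.P181.R2.H207.KAsm

set_option autoImplicit false

open scoped TensorProduct

namespace Vale.Agent.P181.KT

open Finset Vale.Agent.P181 Vale.Agent.P181.H280 Vale.Agent.P181.FR

lemma log_add_le {Z x : ℝ} (hZ : 0 < Z) (hx : 0 ≤ x) : Real.log (Z + x) ≤ Real.log Z + x / Z := by
  have h1 : Z + x = Z * (1 + x / Z) := by field_simp
  have h0 : 0 ≤ x / Z := by positivity
  rw [h1, Real.log_mul (by positivity) (by positivity)]
  have := Real.log_le_sub_one_of_pos (show 0 < 1 + x / Z by positivity)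
  linarith

lemma sq_div_le {x c : ℝ} {T Z k : ℝ} (hc0 : 0 < c) (hx : 0 ≤ x) (hk : 0 ≤ k) (hxc : x ≤ k * c)
    (hZ : Real.exp (-T) * c ^ 2 / 4 ≤ Z) : x * (x / Z) ≤ 4 * k ^ 2 * Real.exp T := by
  have hZ0 : 0 < Z := lt_of_lt_of_le (by positivity) hZ
  rw [← mul_div_assoc, div_le_iff₀ hZ0]
  have h2 : x * x ≤ (k * c) * (k * c) := mul_le_mul hxc hxc hx (by positivity)
  have h3 : 4 * k ^ 2 * Real.exp T * (Real.exp (-T) * c ^ 2 / 4) = (k * c) * (k * c) := by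
    rw [Real.exp_neg]
    field_simp
  calc x * x ≤ (k * c) * (k * c) := h2
    _ = 4 * k ^ 2 * Real.exp T * (Real.exp (-T) * c ^ 2 / 4) := h3.symm
    _ ≤ 4 * k ^ 2 * Real.exp T * Z := mul_le_mul_of_nonneg_left hZ (by positivity)

lemma dots {n a b c M : ℕ} {T : ℝ} {η : Fin (n + 3) → ℝ} {ν lam : Fin (n + 3) → ℕ}
    (hac : a = M + c) (hc : 1 ≤ c) (hcb : c ≤ b) (hbc : b ≤ 4 * c)
    (hT : 0 < T) (hη : ∀ i, η i ≤ 0) (hηT : ∀ i, -T ≤ c * η i)
    (hsum : ∑ i, lam i = a * b) (hs : ∑ i, ν i = b * c) (hle : ∀ i, ν i ≤ lam i) :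
    ∑ i, η i * (ν i : ℝ) - ∑ i, (c * η i / b) * (lam i : ℝ) ≤ 4 * T * M := by
  have hc0 : (0 : ℝ) < c := by exact_mod_cast hc
  have hb0 : (0 : ℝ) < b := by exact_mod_cast (by omega : 0 < b)
  have e1 : ∑ i, η i * (ν i : ℝ) - ∑ i, (c * η i / b) * (lam i : ℝ) =
      ∑ i, ((-η i) * ((lam i : ℝ) - ν i) + (1 - c / b) * (η i * lam i)) := by
    rw [← sum_sub_distrib]
    refine sum_congr rfl fun i _ => ?_
    field_simp
    ring
  rw [e1]
  have h1 : ∀ i, (-η i) * ((lam i : ℝ) - ν i) + (1 - c / b) * (η i * lam i) ≤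
      T / c * ((lam i : ℝ) - ν i) := by
    intro i
    have h2 : (0 : ℝ) ≤ (lam i : ℝ) - ν i := by
      have : ((ν i : ℕ) : ℝ) ≤ lam i := by exact_mod_cast hle i
      linarith
    have h3 : -η i ≤ T / c := by
      rw [le_div_iff₀ hc0]
      linarith [hηT i]
    have h4 : (1 - (c : ℝ) / b) * (η i * lam i) ≤ 0 := by
      have h5 : (c : ℝ) / b ≤ 1 := by rw [div_le_one hb0]; exact_mod_cast hcb
      have h6 : η i * lam i ≤ 0 := mul_nonpos_of_nonpos_of_nonneg (hη i) (Nat.cast_nonneg _)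
      exact mul_nonpos_of_nonneg_of_nonpos (by linarith) h6
    have h7 := mul_le_mul_of_nonneg_right h3 h2
    linarith
  refine (sum_le_sum fun i _ => h1 i).trans ?_
  rw [← mul_sum, sum_sub_distrib]
  have e2 : ∑ i, (lam i : ℝ) = a * b := by exact_mod_cast congrArg (Nat.cast (R := ℝ)) hsum
  have e3 : ∑ i, (ν i : ℝ) = b * c := by exact_mod_cast congrArg (Nat.cast (R := ℝ)) hs
  rw [e2, e3]
  have e4 : (a : ℝ) = M + c := by exact_mod_cast congrArg (Nat.cast (R := ℝ)) hac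
  have e5 : (b : ℝ) ≤ 4 * c := by exact_mod_cast hbc
  have e6 : (a : ℝ) * b - b * c = M * b := by rw [e4]; ring
  rw [e6, div_mul_eq_mul_div, div_le_iff₀ hc0]
  have hM0 : (0 : ℝ) ≤ M := Nat.cast_nonneg _
  have h8 : (M : ℝ) * b ≤ M * (4 * c) := mul_le_mul_of_nonneg_left e5 hM0
  have h9 := mul_le_mul_of_nonneg_left h8 hT.le
  linarith

lemma chain {m a b c p : ℕ} {Z W E1 E2 : ℝ} {X Y : ℕ} (hc0 : (0 : ℝ) < c) (ha0 : (0 : ℝ) < a)
    (hab : a ≤ b) (hcb : (c : ℝ) ≤ b) (hZ0 : 0 < Z)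
    (hI : Z ^ b * Real.exp (-E1) ≤ ((b : ℝ) * c + 1) ^ p * (b.factorial * Y))
    (hW : W ≤ ((b : ℝ) / c) ^ m * Z) (hW0 : 0 ≤ W)
    (hX : (a.factorial : ℝ) * X * Real.exp E2 ≤ (W + a) ^ a) (hcon : Y < X) :
    b * Real.log Z - E1 < p * Real.log ((b : ℝ) * c + 1) + ((b : ℝ) - a) * Real.log b +
      (a * (m * Real.log ((b : ℝ) / c) + Real.log (Z + a)) - E2) := by
  have hb0 : (0 : ℝ) < b := lt_of_lt_of_le hc0 hcb
  have hfa : (0 : ℝ) < a.factorial := by exact_mod_cast Nat.factorial_pos a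
  have hfac : (b.factorial : ℝ) ≤ a.factorial * (b : ℝ) ^ (b - a) := by exact_mod_cast fac_le hab
  have hYX : (Y : ℝ) < X := by exact_mod_cast hcon
  have hbc1 : (1 : ℝ) ≤ b / c := by rw [le_div_iff₀ hc0]; linarith
  have hρ1 : 1 ≤ ((b : ℝ) / c) ^ m := one_le_pow₀ hbc1
  have hWa : W + a ≤ ((b : ℝ) / c) ^ m * (Z + a) := by
    have := mul_le_mul_of_nonneg_right hρ1 ha0.le
    linarith
  have hWpos : 0 < W + a := by linarith
  have hρ0 : 0 < ((b : ℝ) / c) ^ m := by linarith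
  have h1 : Z ^ b * Real.exp (-E1) <
      ((b : ℝ) * c + 1) ^ p * (a.factorial * (b : ℝ) ^ (b - a) * X) := by
    refine lt_of_le_of_lt hI (mul_lt_mul_of_pos_left ?_ (by positivity))
    calc (b.factorial : ℝ) * Y ≤ a.factorial * (b : ℝ) ^ (b - a) * Y :=
          mul_le_mul_of_nonneg_right hfac (Nat.cast_nonneg _)
      _ < _ := mul_lt_mul_of_pos_left hYX (by positivity)
  have h2 : (a.factorial : ℝ) * X ≤ (((b : ℝ) / c) ^ m * (Z + a)) ^ a * Real.exp (-E2) := by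
    have h3 : (a.factorial : ℝ) * X * Real.exp E2 ≤ (((b : ℝ) / c) ^ m * (Z + a)) ^ a :=
      hX.trans (pow_le_pow_left₀ hWpos.le hWa a)
    calc (a.factorial : ℝ) * X = (a.factorial : ℝ) * X * Real.exp E2 * Real.exp (-E2) := by
          rw [mul_assoc, ← Real.exp_add, add_neg_cancel, Real.exp_zero, mul_one]
      _ ≤ _ := mul_le_mul_of_nonneg_right h3 (Real.exp_pos _).le
  have h3 : Z ^ b * Real.exp (-E1) < ((b : ℝ) * c + 1) ^ p * (b : ℝ) ^ (b - a) *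
      ((((b : ℝ) / c) ^ m * (Z + a)) ^ a * Real.exp (-E2)) := by
    refine lt_of_lt_of_le h1 ?_
    calc ((b : ℝ) * c + 1) ^ p * (a.factorial * (b : ℝ) ^ (b - a) * X)
        = ((b : ℝ) * c + 1) ^ p * (b : ℝ) ^ (b - a) * (a.factorial * X) := by ring
      _ ≤ _ := mul_le_mul_of_nonneg_left h2 (by positivity)
  have hlog := Real.log_lt_log (by positivity) h3
  rw [Real.log_mul (by positivity) (by positivity), Real.log_exp, Real.log_pow,
    Real.log_mul (by positivity) (by positivity), Real.log_mul (by positivity) (by positivity),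
    Real.log_mul (by positivity) (by positivity), Real.log_exp, Real.log_pow, Real.log_pow,
    Real.log_pow, Real.log_mul (by positivity) (by positivity), Real.log_pow,
    Nat.cast_sub hab] at hlog
  linarith

/-- the final comparison -/
lemma compare {n a b c M p : ℕ} {T Z W : ℝ} {η : Fin (n + 3) → ℝ} {ν lam : Fin (n + 3) → ℕ}
    {X Y : ℕ} (hac : a = M + c) (hc : 1 ≤ c) (hab : a ≤ b) (hbc : b ≤ 4 * c) (ha2 : a ≤ 2 * c)
    (hT : 0 < T)
    (hZ : Real.exp (-T) * (c : ℝ) ^ 2 / 4 ≤ Z) (hη : ∀ i, η i ≤ 0) (hηT : ∀ i, -T ≤ c * η i)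
    (hsum : ∑ i, lam i = a * b) (hs : ∑ i, ν i = b * c) (hle : ∀ i, ν i ≤ lam i)
    (hI : Z ^ b * Real.exp (-∑ i, η i * (ν i : ℝ)) ≤
      ((b : ℝ) * c + 1) ^ p * (b.factorial * Y))
    (hW : W ≤ ((b : ℝ) / c) ^ (n + 2) * Z) (hW0 : 0 ≤ W)
    (hX : (a.factorial : ℝ) * X * Real.exp (∑ i, (c * η i / b) * (lam i : ℝ)) ≤ (W + a) ^ a)
    (hnum : (p : ℝ) * Real.log ((b : ℝ) * c + 1) + 4 * T * M + 2 * (n + 2) * ((b : ℝ) - c) +
        16 * Real.exp T ≤
        ((b : ℝ) - a) * (Real.log (Real.exp (-T) * c ^ 2 / 4) - Real.log b)) : X ≤ Y := by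
  have hc0 : (0 : ℝ) < c := by exact_mod_cast hc
  have ha0 : (0 : ℝ) < a := by exact_mod_cast (by omega : 0 < a)
  have hcb : (c : ℝ) ≤ b := by exact_mod_cast (by omega : c ≤ b)
  have habR : (a : ℝ) ≤ b := by exact_mod_cast hab
  have hZ0 : 0 < Z := lt_of_lt_of_le (by positivity) hZ
  by_contra hcon
  rw [not_le] at hcon
  have h1 := chain hc0 ha0 hab hcb hZ0 hI hW hW0 hX hcon
  have h2 := dots hac hc (by omega) hbc hT hη hηT hsum hs hle
  have h3 := mul_le_mul_of_nonneg_left (log_add_le hZ0 ha0.le) ha0.le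
  have h4 : (a : ℝ) * (a / Z) ≤ 16 * Real.exp T := by
    have := sq_div_le hc0 ha0.le (by norm_num : (0 : ℝ) ≤ 2)
      (by exact_mod_cast ha2 : (a : ℝ) ≤ 2 * c) hZ
    linarith
  have hlbc : Real.log ((b : ℝ) / c) ≤ ((b : ℝ) - c) / c := by
    have h0 : 0 < (b : ℝ) / c := div_pos (by linarith) hc0
    have := Real.log_le_sub_one_of_pos h0
    have e : ((b : ℝ) - c) / c = b / c - 1 := by field_simp
    linarith
  have h5 : (a : ℝ) * (((b : ℝ) - c) / c) ≤ 2 * ((b : ℝ) - c) := by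
    rw [← mul_div_assoc, div_le_iff₀ hc0]
    have h1 : (a : ℝ) ≤ 2 * c := by exact_mod_cast ha2
    have := mul_le_mul_of_nonneg_right h1 (show (0 : ℝ) ≤ (b : ℝ) - c by linarith)
    linarith
  have h6 : (a : ℝ) * Real.log ((b : ℝ) / c) ≤ 2 * ((b : ℝ) - c) :=
    (mul_le_mul_of_nonneg_left hlbc ha0.le).trans h5
  have h7 := mul_le_mul_of_nonneg_left h6 (show (0 : ℝ) ≤ (n : ℝ) + 2 by positivity)
  have h8 : ((b : ℝ) - a) * Real.log (Real.exp (-T) * c ^ 2 / 4) ≤ ((b : ℝ) - a) * Real.log Z :=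
    mul_le_mul_of_nonneg_left (Real.log_le_log (by positivity) hZ) (by linarith)
  push_cast at h1
  have e1 : (a : ℝ) * (((n : ℝ) + 2) * Real.log ((b : ℝ) / c) + Real.log (Z + a)) =
      ((n : ℝ) + 2) * (a * Real.log ((b : ℝ) / c)) + a * Real.log (Z + a) := by ring
  rw [e1] at h1
  have e2 : ((b : ℝ) - a) * Real.log Z = b * Real.log Z - a * Real.log Z := by ring
  rw [e2] at h8
  rw [mul_sub] at hnum
  rw [mul_add] at h3
  linarith

end Vale.Agent.P181.KT
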