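import Vale.Agent.P181.R2.H207.KDefs
import Vale.Agent.P181.R2.H207.Delta3

set_option autoImplicit false

open scoped TensorProduct

namespace Vale.Agent.P181.KT

open Finset Vale.Agent.P181 Vale.Agent.P181.H280 Vale.Agent.P181.FR

/-- K1 (append two tuples). -/
def K1 : Prop := ∀ {m c b1 b2 : ℕ} (G : Finset (Fin m → ℕ)) (ν : Fin m → ℕ), (∀ v ∈ G, v ≤ ν) →
  ∑ v ∈ G, NN m c b1 v * NN m c b2 (ν - v) ≤ NN m c (b1 + b2) ν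

/-- K2 (Chebyshev). -/
def K2 : Prop := ∀ {m c b : ℕ} {η x : Fin m → ℝ} {D : ℝ}, Mean m c η x → 0 < D →
  2 * m * b * (c : ℝ) ^ 2 ≤ D ^ 2 →
  ZZ m c η ^ b ≤ 2 * ∑ v ∈ (Mn m (b * c)).filter (fun v => ∀ i, |(v i : ℝ) - b * x i| ≤ D),
    (NN m c b v : ℝ) * Real.exp (∑ i, η i * (v i : ℝ))

/-- K3 (the tilt exists). -/
def K3 : Prop := ∀ {m c : ℕ} (x : Fin m → ℝ), 1 ≤ m → 1 ≤ c → ∑ i, x i = c → (∀ i, 0 < x i) →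
  ∃ η : Fin m → ℝ, Mean m c η x

/-- K4 (the tilt minimises). -/
def K4 : Prop := ∀ {m c : ℕ} {η x : Fin m → ℝ} (η' : Fin m → ℝ), Mean m c η x →
  ZZ m c η * Real.exp (-∑ i, η i * x i) ≤ ZZ m c η' * Real.exp (-∑ i, η' i * x i)

/-- K5 (the tilt is bounded). -/
def K5 : Prop := ∀ (m : ℕ) {κ : ℝ}, 0 < κ → ∃ T : ℝ, 0 < T ∧ ∀ (c : ℕ) (η x : Fin m → ℝ), 1 ≤ c →
  Mean m c η x → ∑ i, x i = c → (∀ i, κ * c ≤ x i) → ∀ i j, c * (η i - η j) ≤ T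

/-- K6 (gaps of the tilt). -/
def K6 : Prop := ∀ {m c : ℕ} {η x : Fin m → ℝ} {κ : ℝ} (i j : Fin m), 0 < κ → 1 ≤ c →
  Mean m c η x → x j + κ * c ≤ x i → κ ≤ c * (η i - η j)

/-- K7 (variance). -/
def K7 : Prop := ∀ {m c : ℕ} {η x ζ : Fin m → ℝ} {κ T : ℝ} (i j : Fin m), 0 < κ → 0 ≤ T → 1 ≤ c →
  Mean m c η x → ∑ i, x i = c → (∀ i, 0 ≤ x i) → κ * c ≤ |x i - x j| →
  |c * (η i - η j)| ≤ T → (∀ p q, c * (ζ p - ζ q) ≤ 1) →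
  (1 + Real.exp (-T) * κ ^ 2 / 16 * (c * (ζ i - ζ j)) ^ 2) * ZZ m c η ≤
    ZZ m c (η + ζ) * Real.exp (-∑ i, ζ i * x i)

/-- K8 (Jensen). -/
def K8 : Prop := ∀ {m c : ℕ} (η ζ x : Fin m → ℝ) {r : ℝ}, 1 ≤ r → 0 < ZZ m c η →
  (ZZ m c (η + ζ) * Real.exp (-∑ i, ζ i * x i) / ZZ m c η) ^ r ≤
    ZZ m c (η + r • ζ) * Real.exp (-(r * ∑ i, ζ i * x i)) / ZZ m c η

/-- K9 (smoothness; from K7 and K8). -/
def K9 : Prop := ∀ (m : ℕ) {κ T : ℝ}, 0 < κ → 0 ≤ T → ∃ C b0 : ℕ, ∀ (c b : ℕ)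
  (η η' x Δ : Fin m → ℝ), 1 ≤ c → b0 ≤ b → Mean m c η x → ∑ i, x i = c → (∀ i, 0 ≤ x i) →
  (∀ i j, i ≠ j → κ * c ≤ |x i - x j|) → (∀ i j, c * (η i - η j) ≤ T) → ∑ i, Δ i = 0 →
  (∀ i, Δ i ^ 2 ≤ 2 * m * b * (c : ℝ) ^ 2) →
  ZZ m c η ^ b * Real.exp (-∑ i, η i * (b * x i + Δ i)) ≤
    Real.exp C * (ZZ m c η' ^ b * Real.exp (-∑ i, η' i * (b * x i + Δ i)))

/-- K10 (trivial bounds). -/
def K10 : Prop := (∀ {m c b : ℕ} (ν : Fin m → ℕ), ∑ i, ν i = b * c → 1 ≤ NN m c b ν) ∧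
  ∀ m c : ℕ, 1 ≤ m → ZZ m c 0 ≤ ((c : ℝ) + 1) ^ (m - 1)

/-- K11 (local bound; from K1, K2, K3, K4, K5, K9, K10). -/
def K11 : Prop := ∀ (m : ℕ) {κ : ℝ}, 0 < κ → ∃ P : ℕ, ∀ (c b : ℕ) (ν : Fin m → ℕ)
  (η : Fin m → ℝ), 1 ≤ c → 1 ≤ b → ∑ i, ν i = b * c →
  (∀ i j, i < j → (ν j : ℝ) + κ * (b * c) ≤ ν i) → (∀ i, κ * (b * c) ≤ ν i) →
  Mean m c η (fun i => (ν i : ℝ) / b) →
  ZZ m c η ^ b * Real.exp (-∑ i, η i * (ν i : ℝ)) ≤ ((b : ℝ) * c + 1) ^ P * NN m c b ν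

/-- K12 (two degrees). -/
def K12 : Prop := ∀ {m c b : ℕ} (τ : Fin m → ℝ), 1 ≤ m → 1 ≤ c → c ≤ b →
  ZZ m b (fun i => τ i / b) ≤ ((b : ℝ) / c) ^ (m - 1) * ZZ m c (fun i => τ i / c)

/-- K13a (complete symmetric functions). -/
def K13a : Prop := ∀ {ι : Type} [Fintype ι] [DecidableEq ι] (w : ι → ℝ) (a : ℕ),
  (∀ i, 0 ≤ w i) → (∀ i, w i ≤ 1) →
  (a.factorial : ℝ) * ∑ s : Sym ι a, ((s : Multiset ι).map w).prod ≤ (∑ i, w i + a) ^ a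

/-- K13b (multiplicity at most the number of multisets of monomials with that weight). -/
def K13b : Prop := ∀ (a b m : ℕ) (lam : Fin m → ℕ), plethMult a b m lam ≤
  (Finset.univ.filter (fun s : Sym {u // u ∈ Mn m b} a =>
    ((s : Multiset {u // u ∈ Mn m b}).map (fun u => u.1)).sum = lam)).card

/-- K13 (from K13a and K13b). -/
def K13 : Prop := ∀ {a b m : ℕ} (lam : Fin m → ℕ) (η : Fin m → ℝ), (∀ i, η i ≤ 0) →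
  (a.factorial : ℝ) * plethMult a b m lam * Real.exp (∑ i, η i * (lam i : ℝ)) ≤
    (ZZ m b η + a) ^ a

/-- K14 (a rich highest weight that dominates `ν`). -/
def K14 : Prop := ∀ {b c m : ℕ} (ν : Fin m → ℕ), ∑ i, ν i = b * c → ∃ lam : Fin m → ℕ,
  ∑ i, lam i = b * c ∧
  (∀ k : Fin m, ∑ i ∈ univ.filter (· ≤ k), ν i ≤ ∑ i ∈ univ.filter (· ≤ k), lam i) ∧
  NN m c b ν ≤ b.factorial * ((b * c + 1) ^ (m * m + m) * plethMult b c m lam)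

/-- K15: the theorem (from K3, K4, K5, K6, K11, K12, K13, K14, `final_delta`). -/
def K15 : Prop := ∀ (n : ℕ) {κ : ℝ}, 0 < κ → ∃ K A : ℕ, ∀ (a b : ℕ) (lam : Fin (n + 3) → ℕ),
  A ≤ a → a + K ≤ b → ∑ i, lam i = a * b →
  (∀ i : Fin (n + 2), (lam i.succ : ℝ) + κ * (a * b) ≤ lam i.castSucc) →
  κ * (a * b) ≤ lam (Fin.last _) → plethMult a b (n + 3) lam ≤ plethMult b a (n + 3) lam

end Vale.Agent.P181.KT
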